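import Vale.Agent.P181.R2.H923.FR2
import Vale.Agent.P181.R2.H9.FR3
import Vale.Agent.P181.H280.Final

set_option autoImplicit false

open scoped TensorProduct

namespace Vale.Agent.P181.FR

open Vale.Agent.P181 Vale.Agent.P181.H280 Vale.Agent.P181.H54 MvPolynomial

/-- The function of a form. -/
lemma exists_form {a m : ℕ} (y : Sym[ℂ]^a (Fin m → ℂ)) :
    ∃ q : MvPolynomial (Fin m) ℂ, q.IsHomogeneous a ∧
      ∀ p : Fin m → ℂ, evalPow a (dotF p) y = eval p q := by
  have hy : y ∈ Submodule.span ℂ (Set.range (SymmetricPower.tprod ℂ (ι := Fin a)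
      (M := Fin m → ℂ))) := by
    rw [SymmetricPower.span_tprod_eq_top]
    trivial
  induction hy using Submodule.span_induction with
  | mem y hy =>
    obtain ⟨v, rfl⟩ := hy
    refine ⟨∏ t : Fin a, ∑ i, C (v t i) * X i, ?_, ?_⟩
    · have h := IsHomogeneous.prod (Finset.univ : Finset (Fin a))
        (fun t => ∑ i, C (v t i) * (X i : MvPolynomial (Fin m) ℂ)) (fun _ => 1) (fun t _ => by
          apply IsHomogeneous.sum
          intro i _
          have := (isHomogeneous_C (Fin m) (v t i)).mul (isHomogeneous_X ℂ i)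
          rwa [zero_add] at this)
      simpa using h
    · intro p
      rw [evalPow_tprod, map_prod]
      apply Finset.prod_congr rfl
      intro t _
      rw [dotF_apply, map_sum]
      apply Finset.sum_congr rfl
      intro i _
      rw [map_mul, eval_C, eval_X, mul_comm]
  | zero => exact ⟨0, isHomogeneous_zero _ _ _, fun p => by rw [map_zero, map_zero]⟩
  | add y z _ _ h h' =>
    obtain ⟨q, hq, h1⟩ := h
    obtain ⟨r, hr, h2⟩ := h'
    exact ⟨q + r, hq.add hr, fun p => by rw [map_add, map_add, h1, h2]⟩
  | smul c y _ h =>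
    obtain ⟨q, hq, h1⟩ := h
    refine ⟨C c * q, ?_, fun p => by rw [map_smul, map_mul, eval_C, smul_eq_mul, h1]⟩
    have := (isHomogeneous_C (Fin m) c).mul hq
    rwa [zero_add] at this

/-- The function of a vector of `Sym^B(Sym^a)` is a function of `B` points in `MP`. -/
lemma ptv_mem {B a m : ℕ} (x : Pleth B a m) : (fun p => ptv x p) ∈ MP B m a := by
  classical
  have key : ∀ x : Sym[ℂ]^B (Sym[ℂ]^a (Fin m → ℂ)),
      (fun p : Fin B → Fin m → ℂ => symEval (fun j => evalPow a (dotF (p j))) x) ∈ MP B m a := by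
    intro x
    have hx : x ∈ Submodule.span ℂ (Set.range (SymmetricPower.tprod ℂ (ι := Fin B)
        (M := Sym[ℂ]^a (Fin m → ℂ)))) := by
      rw [SymmetricPower.span_tprod_eq_top]
      trivial
    induction hx using Submodule.span_induction with
    | mem y hy =>
      obtain ⟨v, rfl⟩ := hy
      choose q hq hq2 using fun t => exists_form (v t)
      have h : (fun p : Fin B → Fin m → ℂ =>
          symEval (fun j => evalPow a (dotF (p j))) (SymmetricPower.tprod ℂ v)) =
          ∑ e : Equiv.Perm (Fin B), fun p : Fin B → Fin m → ℂ =>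
            ∏ j, eval (p j) (q (e j)) := by
        funext p
        rw [symEval_tprod, Finset.sum_apply]
        apply Finset.sum_congr rfl
        intro e _
        apply Finset.prod_congr rfl
        intro j _
        exact hq2 _ _
      rw [h]
      apply Submodule.sum_mem
      intro e _
      exact Submodule.subset_span ⟨fun j => q (e j), fun j => hq _, rfl⟩
    | zero =>
      have h : (fun p : Fin B → Fin m → ℂ => symEval (fun j => evalPow a (dotF (p j)))
          (0 : Sym[ℂ]^B (Sym[ℂ]^a (Fin m → ℂ)))) = 0 := by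
        funext p
        rw [map_zero]
        rfl
      rw [h]
      exact Submodule.zero_mem _
    | add y z _ _ h h' =>
      have h2 : (fun p : Fin B → Fin m → ℂ => symEval (fun j => evalPow a (dotF (p j))) (y + z)) =
          (fun p : Fin B → Fin m → ℂ => symEval (fun j => evalPow a (dotF (p j))) y) +
          (fun p : Fin B → Fin m → ℂ => symEval (fun j => evalPow a (dotF (p j))) z) := by
        funext p
        rw [map_add]
        rfl
      rw [h2]
      exact Submodule.add_mem _ h h'
    | smul c y _ h =>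
      have h2 : (fun p : Fin B → Fin m → ℂ => symEval (fun j => evalPow a (dotF (p j))) (c • y)) =
          c • (fun p : Fin B → Fin m → ℂ => symEval (fun j => evalPow a (dotF (p j))) y) := by
        funext p
        rw [map_smul]
        rfl
      rw [h2]
      exact Submodule.smul_mem _ _ h
  exact key x

lemma ptv_perm {B a m : ℕ} (x : Pleth B a m) (σ : Equiv.Perm (Fin B)) (p : Fin B → Fin m → ℂ) :
    ptv x (fun j => p (σ j)) = ptv x p :=
  symEval_perm (fun j => evalPow a (dotF (p j))) σ (x : Sym[ℂ]^B (Sym[ℂ]^a (Fin m → ℂ)))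

/-- The pointwise product, as a linear map. -/
lemma exists_ptmul {B e c m : ℕ} (y : Pleth B e m) :
    ∃ L : Pleth B c m →ₗ[ℂ] Pleth B (e + c) m, ∀ x p, ptv (L x) p = ptv y p * ptv x p := by
  have hex : ∀ x : Pleth B c m, ∃ z : Pleth B (e + c) m, ∀ p, ptv z p = ptv y p * ptv x p := by
    intro x
    obtain ⟨z, hz⟩ := exists_ptv _ (MP_mul (ptv_mem y) (ptv_mem x))
    have hc : (Fintype.card (Equiv.Perm (Fin B)) : ℂ) ≠ 0 := by
      exact_mod_cast Fintype.card_ne_zero
    refine ⟨(Fintype.card (Equiv.Perm (Fin B)) : ℂ)⁻¹ • z, fun p => ?_⟩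
    have h1 : ∀ σ : Equiv.Perm (Fin B), ((fun p => ptv y p) * (fun p => ptv x p))
        (fun j => p (σ j)) = ptv y p * ptv x p := by
      intro σ
      rw [Pi.mul_apply, ptv_perm, ptv_perm]
    rw [ptv_smul, hz, Finset.sum_congr rfl (fun σ _ => h1 σ), Finset.sum_const, nsmul_eq_mul,
      Finset.card_univ, inv_mul_cancel_left₀ hc]
  choose f hf using hex
  refine ⟨⟨⟨f, ?_⟩, ?_⟩, hf⟩
  · intro x z
    apply ptv_sep
    intro p
    rw [hf, ptv_add, ptv_add, hf, hf, mul_add]
  · intro t x
    apply ptv_sep
    intro p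
    rw [RingHom.id_apply, hf, ptv_smul, ptv_smul, hf]
    ring

/-- Polynomial functions of points form a domain: on a complex line both factors are
polynomials. -/
lemma ptv_line {B a m : ℕ} (x : Pleth B a m) (p q : Fin B → Fin m → ℂ) :
    ∃ r : Polynomial ℂ, ∀ t : ℂ, r.eval t = ptv x (fun j => p j + t • q j) := by
  have h := ptv_mem x
  have key : ∀ G ∈ MP B m a, ∃ r : Polynomial ℂ, ∀ t : ℂ,
      r.eval t = G (fun j => p j + t • q j) := by
    intro G hG
    induction hG using Submodule.span_induction with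
    | mem G hG =>
      obtain ⟨s, _, rfl⟩ := hG
      refine ⟨∏ j, (MvPolynomial.aeval
        (fun i => Polynomial.C (p j i) + Polynomial.X * Polynomial.C (q j i)) (s j)), ?_⟩
      intro t
      rw [Polynomial.eval_prod]
      apply Finset.prod_congr rfl
      intro j _
      have h1 : (Polynomial.evalRingHom t) (MvPolynomial.aeval
          (fun i => Polynomial.C (p j i) + Polynomial.X * Polynomial.C (q j i)) (s j)) =
          eval (p j + t • q j) (s j) := by
        rw [MvPolynomial.aeval_def, MvPolynomial.hom_eval₂]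
        have h2 : (Polynomial.evalRingHom t).comp (algebraMap ℂ (Polynomial ℂ)) =
            RingHom.id ℂ := by
          ext z
          simp
        rw [h2]
        change eval₂ (RingHom.id ℂ) _ _ = eval₂ (RingHom.id ℂ) _ _
        congr 1
        funext i
        simp
        exact mul_comm _ _
      exact h1
    | zero => exact ⟨0, fun t => by simp⟩
    | add G H _ _ h h' =>
      obtain ⟨r, hr⟩ := h
      obtain ⟨s, hs⟩ := h'
      exact ⟨r + s, fun t => by rw [Polynomial.eval_add, hr, hs]; rfl⟩
    | smul c G _ h =>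
      obtain ⟨r, hr⟩ := h
      exact ⟨Polynomial.C c * r, fun t => by
        rw [Polynomial.eval_mul, Polynomial.eval_C, hr]; rfl⟩
  exact key _ h

lemma ptv_domain {B e c m : ℕ} (y : Pleth B e m) (x : Pleth B c m) (hy : y ≠ 0)
    (h : ∀ p, ptv y p * ptv x p = 0) : x = 0 := by
  obtain ⟨q, hq⟩ : ∃ q, ptv y q ≠ 0 := by
    by_contra hh
    push Not at hh
    apply hy
    apply ptv_sep
    intro p
    rw [hh, ptv_zero]
  apply ptv_sep
  intro p
  rw [ptv_zero]
  obtain ⟨r, hr⟩ := ptv_line y p (fun j => q j - p j)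
  obtain ⟨s, hs⟩ := ptv_line x p (fun j => q j - p j)
  have hrs : r * s = 0 := by
    apply Polynomial.funext
    intro t
    rw [Polynomial.eval_mul, hr, hs, h, Polynomial.eval_zero]
  rcases mul_eq_zero.1 hrs with h0 | h0
  · exfalso
    apply hq
    have h1 := hr 1
    rw [h0, Polynomial.eval_zero] at h1
    rw [h1]
    congr 1
    funext j
    rw [one_smul, add_sub_cancel]
  · have h1 := hs 0
    rw [h0, Polynomial.eval_zero] at h1
    rw [h1]
    congr 1
    funext j
    rw [zero_smul, add_zero]

/-- **Row R15.** Pointwise multiplication by a highest weight vector with the same number of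
points. -/
theorem plethMult_pt {B e c m : ℕ} {mu lam : Fin m → ℕ} (h : Pos B e m mu) :
    plethMult B c m lam ≤ plethMult B (e + c) m (mu + lam) := by
  obtain ⟨y, hy, hy0⟩ := h
  obtain ⟨L, hL⟩ := exists_ptmul (c := c) y
  have _inst : Module.Finite ℂ (Pleth B (e + c) m) :=
    inferInstanceAs (Module.Finite ℂ (Sym[ℂ]^B (Sym[ℂ]^(e + c) (Fin m → ℂ))))
  refine finrank_le_of_inj L (hwSpace lam (plethAct B c m))
    (hwSpace (mu + lam) (plethAct B (e + c) m)) ?_ ?_
  · intro x hx g hg
    apply ptv_sep
    intro p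
    have h1 : ptv y (fun j => Matrix.vecMul (p j) g) = (∏ i, g i i ^ mu i) * ptv y p := by
      rw [← ptv_act, hy g hg, ptv_smul]
    have h2 : ptv x (fun j => Matrix.vecMul (p j) g) = (∏ i, g i i ^ lam i) * ptv x p := by
      rw [← ptv_act, hx g hg, ptv_smul]
    rw [ptv_act, ptv_smul, hL, hL, h1, h2]
    have h3 : ∏ i, g i i ^ (mu + lam) i = (∏ i, g i i ^ mu i) * ∏ i, g i i ^ lam i := by
      rw [← Finset.prod_mul_distrib]
      exact Finset.prod_congr rfl (fun i _ => pow_add _ _ _)
    rw [h3]
    ring
  · intro x _ h0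
    apply ptv_domain y x hy0
    intro p
    rw [← hL, h0, ptv_zero]

end Vale.Agent.P181.FR
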