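import Vale.Agent.P181.R2.H959.FParts

set_option autoImplicit false

/-!
# Partitions with a small gap are rare, with a polynomial constant (P181 v3, row G3)

`count_gap_poly`: the number of partitions of `s` with at most `m = n + 3` rows which have a gap
smaller than `G` is at most `m ^ 5 * G / s` times the number of all of them.
-/

namespace Vale.Agent.P181.FR

namespace CGP

/-- The sequence continued by zeros. -/
def ex {m : ℕ} (lam : Fin m → ℕ) (l : ℕ) : ℕ := if h : l < m then lam ⟨l, h⟩ else 0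

theorem ex_fin {m : ℕ} (lam : Fin m → ℕ) (l : Fin m) : ex lam l = lam l := by
  unfold ex
  rw [dif_pos l.2]

theorem ex_lt {m : ℕ} (lam : Fin m → ℕ) (l : ℕ) (h : l < m) : ex lam l = lam ⟨l, h⟩ := by
  unfold ex
  rw [dif_pos h]

theorem ex_ge {m : ℕ} (lam : Fin m → ℕ) (l : ℕ) (h : m ≤ l) : ex lam l = 0 := by
  unfold ex
  rw [dif_neg (by omega)]

theorem ex_anti {m : ℕ} (lam : Fin m → ℕ) (h : ∀ i j, i ≤ j → lam j ≤ lam i) (k l : ℕ)
    (hkl : k ≤ l) : ex lam l ≤ ex lam k := by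
  by_cases hl : l < m
  · rw [ex_lt lam l hl, ex_lt lam k (by omega)]
    exact h _ _ hkl
  · rw [ex_ge lam l (by omega)]
    exact Nat.zero_le _

/-- Move `t * (k + 1)` to the gap `i` and take `t * (i + 1)` from the gap `k`. -/
def mv {m : ℕ} (i k : Fin m) (t : ℕ) (lam : Fin m → ℕ) (l : Fin m) : ℕ :=
  lam l + (if l ≤ i then t * ((k : ℕ) + 1) else 0) - (if l ≤ k then t * ((i : ℕ) + 1) else 0)

theorem mv_add {m : ℕ} (i k : Fin m) (t : ℕ) (lam : Fin m → ℕ)
    (h : ∀ i j, i ≤ j → lam j ≤ lam i) (hk : t * ((i : ℕ) + 1) ≤ lam k) (l : Fin m) :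
    mv i k t lam l + (if l ≤ k then t * ((i : ℕ) + 1) else 0) =
      lam l + (if l ≤ i then t * ((k : ℕ) + 1) else 0) := by
  unfold mv
  by_cases hl : l ≤ k
  · rw [if_pos hl]
    have := h l k hl
    omega
  · rw [if_neg hl]
    omega

theorem sum_le_ite {m : ℕ} (k : Fin m) (c : ℕ) :
    ∑ l : Fin m, (if l ≤ k then c else 0) = ((k : ℕ) + 1) * c := by
  rw [← Finset.sum_filter, Finset.sum_const, smul_eq_mul]
  have h : Finset.univ.filter (fun l : Fin m => l ≤ k) = Finset.Iic k := by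
    ext l
    simp
  rw [h, Fin.card_Iic]

theorem mv_sum {m : ℕ} (i k : Fin m) (t : ℕ) (lam : Fin m → ℕ)
    (h : ∀ i j, i ≤ j → lam j ≤ lam i) (hk : t * ((i : ℕ) + 1) ≤ lam k) :
    ∑ l, mv i k t lam l = ∑ l, lam l := by
  have h1 := Finset.sum_congr rfl (fun l (_ : l ∈ (Finset.univ : Finset (Fin m))) =>
    mv_add i k t lam h hk l)
  rw [Finset.sum_add_distrib, Finset.sum_add_distrib, sum_le_ite, sum_le_ite] at h1
  have h2 : ((k : ℕ) + 1) * (t * ((i : ℕ) + 1)) = ((i : ℕ) + 1) * (t * ((k : ℕ) + 1)) := by ring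
  omega

theorem mv_anti {m : ℕ} (i k : Fin m) (t : ℕ) (lam : Fin m → ℕ)
    (h : ∀ i j, i ≤ j → lam j ≤ lam i) (hk : ex lam (k + 1) + t * ((i : ℕ) + 1) ≤ lam k)
    (p q : Fin m) (hpq : p ≤ q) : mv i k t lam q ≤ mv i k t lam p := by
  have hp := mv_add i k t lam h (by omega) p
  have hq := mv_add i k t lam h (by omega) q
  have h1 := h p q hpq
  have h2 : (if q ≤ i then t * ((k : ℕ) + 1) else 0) ≤ (if p ≤ i then t * ((k : ℕ) + 1) else 0) := by
    by_cases h3 : q ≤ i
    · rw [if_pos h3, if_pos (le_trans hpq h3)]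
    · rw [if_neg h3]
      exact Nat.zero_le _
  by_cases hqk : q ≤ k
  · rw [if_pos hqk] at hq
    rw [if_pos (le_trans hpq hqk)] at hp
    omega
  · rw [if_neg hqk] at hq
    by_cases hpk : p ≤ k
    · rw [if_pos hpk] at hp
      have h4 := h p k hpk
      have h5 : ex lam q ≤ ex lam (k + 1) := by
        apply ex_anti lam h
        have : k < q := not_le.mp hqk
        exact this
      rw [ex_fin] at h5
      omega
    · rw [if_neg hpk] at hp
      omega

theorem mv_gap {m : ℕ} (i k : Fin m) (hik : i ≠ k) (t : ℕ) (lam : Fin m → ℕ)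
    (h : ∀ i j, i ≤ j → lam j ≤ lam i) (hk : ex lam (k + 1) + t * ((i : ℕ) + 1) ≤ lam k) :
    mv i k t lam i + ex lam (i + 1) = lam i + ex (mv i k t lam) (i + 1) + t * ((k : ℕ) + 1) := by
  have hi := mv_add i k t lam h (by omega) i
  rw [if_pos le_rfl] at hi
  by_cases h1 : (i : ℕ) + 1 < m
  · rw [ex_lt _ _ h1, ex_lt _ _ h1]
    have h2 := mv_add i k t lam h (by omega) ⟨(i : ℕ) + 1, h1⟩
    rw [if_neg (show ¬ ((⟨(i : ℕ) + 1, h1⟩ : Fin m) ≤ i) by
      rw [Fin.le_def]; show ¬ ((i : ℕ) + 1 ≤ i); omega)] at h2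
    by_cases h3 : i ≤ k
    · have h4 : (⟨(i : ℕ) + 1, h1⟩ : Fin m) ≤ k := by
        rw [Fin.le_def]
        show (i : ℕ) + 1 ≤ k
        have h5 : i < k := lt_of_le_of_ne h3 hik
        exact h5
      rw [if_pos h4] at h2
      rw [if_pos h3] at hi
      omega
    · have h4 : ¬ ((⟨(i : ℕ) + 1, h1⟩ : Fin m) ≤ k) := by
        rw [Fin.le_def]
        show ¬ ((i : ℕ) + 1 ≤ k)
        have h5 : k < i := not_le.mp h3
        rw [Fin.lt_def] at h5
        omega
      rw [if_neg h4] at h2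
      rw [if_neg h3] at hi
      omega
  · rw [ex_ge _ _ (by omega), ex_ge _ _ (by omega)]
    have h3 : ¬ i ≤ k := by
      intro h4
      have h5 : i < k := lt_of_le_of_ne h4 hik
      rw [Fin.lt_def] at h5
      have := k.2
      omega
    rw [if_neg h3] at hi
    omega

theorem mem_Parts {m s : ℕ} (lam : Fin m → Fin (s + 1)) :
    lam ∈ Parts m s ↔ (∀ i j, i ≤ j → lam j ≤ lam i) ∧ ∑ i, (lam i : ℕ) = s := by
  unfold Parts
  rw [Finset.mem_filter]
  exact ⟨fun h => h.2, fun h => ⟨Finset.mem_univ _, h⟩⟩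

/-- The main injection. -/
theorem block {m s T : ℕ} (i k : Fin m) (hik : i ≠ k) (j : ℕ)
    (S : Finset (Fin m → Fin (s + 1)))
    (hS : ∀ lam ∈ S, lam ∈ Parts m s ∧
      ex (fun l => (lam l : ℕ)) (k + 1) + T * ((i : ℕ) + 1) ≤ lam k ∧
      (lam i : ℕ) = ex (fun l => (lam l : ℕ)) (i + 1) + j) :
    (T + 1) * S.card ≤ (Parts m s).card := by
  classical
  have key : ∀ lam ∈ S, ∀ t, t ≤ T → (∀ p q, p ≤ q →
      mv i k t (fun l => (lam l : ℕ)) q ≤ mv i k t (fun l => (lam l : ℕ)) p) ∧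
      ∑ l, mv i k t (fun l => (lam l : ℕ)) l = s ∧
      (mv i k t (fun l => (lam l : ℕ)) i =
        ex (mv i k t (fun l => (lam l : ℕ))) (i + 1) + j + t * ((k : ℕ) + 1)) ∧
      ∀ l, mv i k t (fun l => (lam l : ℕ)) l + (if l ≤ k then t * ((i : ℕ) + 1) else 0) =
        lam l + (if l ≤ i then t * ((k : ℕ) + 1) else 0) := by
    intro lam hlam t ht
    obtain ⟨h1, h2, h3⟩ := hS lam hlam
    rw [mem_Parts] at h1
    have hmono : t * ((i : ℕ) + 1) ≤ T * ((i : ℕ) + 1) := Nat.mul_le_mul_right _ ht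
    have ha : ∀ p q : Fin m, p ≤ q → (fun l => (lam l : ℕ)) q ≤ (fun l => (lam l : ℕ)) p :=
      fun p q hpq => h1.1 p q hpq
    have hk : ex (fun l => (lam l : ℕ)) (k + 1) + t * ((i : ℕ) + 1) ≤
        (fun l => (lam l : ℕ)) k := by
      show _ ≤ (lam k : ℕ)
      omega
    refine ⟨fun p q hpq => mv_anti i k t _ ha hk p q hpq, ?_, ?_, ?_⟩
    · rw [mv_sum i k t _ ha (le_trans (Nat.le_add_left _ _) hk)]
      exact h1.2
    · have h4 : mv i k t (fun l => (lam l : ℕ)) i + ex (fun l => (lam l : ℕ)) (i + 1) =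
          (lam i : ℕ) + ex (mv i k t (fun l => (lam l : ℕ))) (i + 1) + t * ((k : ℕ) + 1) :=
        mv_gap i k hik t _ ha hk
      omega
    · exact fun l => mv_add i k t _ ha (le_trans (Nat.le_add_left _ _) hk) l
  have hle : ∀ lam ∈ S, ∀ t, t ≤ T → ∀ l, mv i k t (fun l => (lam l : ℕ)) l < s + 1 := by
    intro lam hlam t ht l
    have h1 := (key lam hlam t ht).2.1
    have h2 : mv i k t (fun l => (lam l : ℕ)) l ≤ ∑ l, mv i k t (fun l => (lam l : ℕ)) l :=
      Finset.single_le_sum (f := fun l => mv i k t (fun l => (lam l : ℕ)) l)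
        (fun _ _ => Nat.zero_le _) (Finset.mem_univ l)
    omega
  have hc : (Finset.range (T + 1) ×ˢ S).card = (T + 1) * S.card := by
    rw [Finset.card_product, Finset.card_range]
  rw [← hc]
  apply Finset.card_le_card_of_injOn
    (fun x => fun l => Fin.ofNat (s + 1) (mv i k x.1 (fun l => (x.2 l : ℕ)) l))
  · intro x hx
    rw [Finset.mem_coe, Finset.mem_product, Finset.mem_range] at hx
    have hv : ∀ l, ((Fin.ofNat (s + 1) (mv i k x.1 (fun l => (x.2 l : ℕ)) l) : Fin (s + 1)) : ℕ) =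
        mv i k x.1 (fun l => (x.2 l : ℕ)) l := by
      intro l
      rw [Fin.val_ofNat]
      exact Nat.mod_eq_of_lt (hle x.2 hx.2 x.1 (by omega) l)
    have h1 := key x.2 hx.2 x.1 (by omega)
    rw [Finset.mem_coe, mem_Parts]
    constructor
    · intro p q hpq
      rw [Fin.le_def, hv, hv]
      exact h1.1 p q hpq
    · exact (Finset.sum_congr rfl (fun l _ => hv l)).trans h1.2.1
  · intro x hx y hy hxy
    rw [Finset.mem_coe, Finset.mem_product, Finset.mem_range] at hx hy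
    have hv : ∀ l, mv i k x.1 (fun l => (x.2 l : ℕ)) l = mv i k y.1 (fun l => (y.2 l : ℕ)) l := by
      intro l
      have h1 := congrArg Fin.val (congrFun hxy l)
      simp only at h1
      rw [Fin.val_ofNat, Fin.val_ofNat,
        Nat.mod_eq_of_lt (hle x.2 hx.2 x.1 (by omega) l),
        Nat.mod_eq_of_lt (hle y.2 hy.2 y.1 (by omega) l)] at h1
      exact h1
    have hf : mv i k x.1 (fun l => (x.2 l : ℕ)) = mv i k y.1 (fun l => (y.2 l : ℕ)) := funext hv
    have h1 := key x.2 hx.2 x.1 (by omega)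
    have h2 := key y.2 hy.2 y.1 (by omega)
    have ht : x.1 = y.1 := by
      have h3 := h1.2.2.1
      have h4 := h2.2.2.1
      rw [hf] at h3
      have h5 : x.1 * ((k : ℕ) + 1) = y.1 * ((k : ℕ) + 1) := by omega
      exact Nat.eq_of_mul_eq_mul_right (Nat.succ_pos _) h5
    refine Prod.ext ht ?_
    funext l
    apply Fin.ext
    have h3 := h1.2.2.2 l
    have h4 := h2.2.2.2 l
    rw [hf, ht] at h3
    omega

/-- Some gap is large. -/
theorem exists_gap {m s : ℕ} (hm : 0 < m) (lam : Fin m → ℕ)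
    (h : ∀ i j, i ≤ j → lam j ≤ lam i) (hs : ∑ i, lam i = s) :
    ∃ k : Fin m, m ^ 2 * ex lam (k + 1) + s ≤ m ^ 2 * lam k := by
  by_contra hcon
  push Not at hcon
  -- lam 0 is large
  have h0 : s ≤ m * ex lam 0 := by
    rw [← hs]
    have h1 := Finset.sum_le_card_nsmul (Finset.univ : Finset (Fin m)) (fun i => lam i) (ex lam 0)
      (fun i _ => by
        rw [ex_lt lam 0 hm]
        exact h _ _ (Fin.le_def.mpr (Nat.zero_le _)))
    rwa [Finset.card_univ, Fintype.card_fin, smul_eq_mul] at h1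
  have h1 : ∀ r, r ≤ m → m ^ 2 * ex lam 0 + r ≤ m ^ 2 * ex lam r + r * s := by
    intro r
    induction r with
    | zero => intro _; omega
    | succ r ih =>
      intro hr
      have h2 := ih (by omega)
      have h3 := hcon ⟨r, by omega⟩
      have h4 : lam ⟨r, by omega⟩ = ex lam r := (ex_lt lam r (by omega)).symm
      rw [h4] at h3
      have h5 : ((⟨r, by omega⟩ : Fin m) : ℕ) = r := rfl
      rw [h5] at h3
      have h6 : (r + 1) * s = r * s + s := by ring
      omega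
  have h2 := h1 m le_rfl
  rw [ex_ge lam m le_rfl] at h2
  have h3 : m ^ 2 * ex lam 0 = m * (m * ex lam 0) := by ring
  have h4 : m * s ≤ m * (m * ex lam 0) := Nat.mul_le_mul_left _ h0
  omega

end CGP

open CGP

theorem count_gap_poly (n s G : ℕ) (_hG : 1 ≤ G) :
    s * ((Parts (n + 3) s).filter (fun lam =>
      (∃ i : Fin (n + 2), (lam i.castSucc : ℕ) < lam i.succ + G) ∨
        (lam (Fin.last _) : ℕ) < G)).card ≤ (n + 3) ^ 5 * G * (Parts (n + 3) s).card := by
  classical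
  obtain ⟨m, hm⟩ : ∃ m, m = n + 3 := ⟨_, rfl⟩
  obtain ⟨B, hB⟩ : ∃ B : Finset (Fin (n + 3) → Fin (s + 1)), B = ((Parts (n + 3) s).filter
    (fun lam => (∃ i : Fin (n + 2), (lam i.castSucc : ℕ) < lam i.succ + G) ∨
        (lam (Fin.last _) : ℕ) < G)) := ⟨_, rfl⟩
  rw [← hB]
  have hBP : B ⊆ Parts (n + 3) s := by
    rw [hB]
    exact Finset.filter_subset _ _
  have hBi : ∀ lam ∈ B, ∃ i : Fin (n + 3), (lam i : ℕ) < ex (fun l => (lam l : ℕ)) (i + 1) + G := by
    intro lam hlam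
    rw [hB, Finset.mem_filter] at hlam
    rcases hlam.2 with ⟨i, hi⟩ | h
    · refine ⟨i.castSucc, ?_⟩
      have h1 : ex (fun l => (lam l : ℕ)) ((i.castSucc : ℕ) + 1) = lam i.succ := by
        rw [ex_lt _ _ (by have := i.2; rw [Fin.val_castSucc]; omega)]
        rfl
      rw [h1]
      exact hi
    · refine ⟨Fin.last _, ?_⟩
      omega
  by_cases hsG : s ≤ (n + 3) ^ 2 * G
  · have h1 : B.card ≤ (Parts (n + 3) s).card := Finset.card_le_card hBP
    have h2 : (n + 3) ^ 2 ≤ (n + 3) ^ 5 := Nat.pow_le_pow_right (by omega) (by omega)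
    calc s * B.card ≤ ((n + 3) ^ 2 * G) * (Parts (n + 3) s).card := Nat.mul_le_mul hsG h1
      _ ≤ ((n + 3) ^ 5 * G) * (Parts (n + 3) s).card :=
        Nat.mul_le_mul_right _ (Nat.mul_le_mul_right _ h2)
  · have hsG' : (n + 3) ^ 2 * G < s := not_le.mp hsG
    obtain ⟨T, hT⟩ : ∃ T, T = s / (n + 3) ^ 3 := ⟨_, rfl⟩
    have hT1 : (n + 3) ^ 3 * T ≤ s := by rw [hT]; exact Nat.mul_div_le s _
    have hT2 : s ≤ (n + 3) ^ 3 * (T + 1) := by
      rw [hT]
      exact le_of_lt (Nat.lt_mul_div_succ s (by positivity))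
    obtain ⟨S, hS⟩ : ∃ S : Fin (n + 3) × Fin (n + 3) × Fin G → Finset (Fin (n + 3) → Fin (s + 1)),
        ∀ x, S x = (Parts (n + 3) s).filter (fun lam =>
          (lam x.1 : ℕ) = ex (fun l => (lam l : ℕ)) (x.1 + 1) + x.2.2 ∧
          (n + 3) ^ 2 * ex (fun l => (lam l : ℕ)) (x.2.1 + 1) + s ≤ (n + 3) ^ 2 * lam x.2.1) :=
      ⟨_, fun _ => rfl⟩
    have hcov : B ⊆ Finset.univ.biUnion S := by
      intro lam hlam
      have hP := hBP hlam
      have hP2 := hP
      rw [mem_Parts] at hP2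
      have hanti : ∀ p q : Fin (n + 3), p ≤ q →
          (fun l => (lam l : ℕ)) q ≤ (fun l => (lam l : ℕ)) p := fun p q hpq => hP2.1 p q hpq
      obtain ⟨i, hi⟩ := hBi lam hlam
      obtain ⟨k, hk⟩ := exists_gap (by omega) (fun l => (lam l : ℕ)) hanti hP2.2
      have h1 : ex (fun l => (lam l : ℕ)) (i + 1) ≤ lam i := by
        have := ex_anti (fun l => (lam l : ℕ)) hanti i (i + 1) (Nat.le_succ _)
        rwa [ex_fin] at this
      rw [Finset.mem_biUnion]
      refine ⟨(i, k, ⟨(lam i : ℕ) - ex (fun l => (lam l : ℕ)) (i + 1), by omega⟩),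
        Finset.mem_univ _, ?_⟩
      rw [hS, Finset.mem_filter]
      refine ⟨hP, ?_, hk⟩
      show (lam i : ℕ) = ex (fun l => (lam l : ℕ)) (i + 1) +
        ((lam i : ℕ) - ex (fun l => (lam l : ℕ)) (i + 1))
      omega
    have hone : ∀ x, (T + 1) * (S x).card ≤ (Parts (n + 3) s).card := by
      intro x
      by_cases hx : x.1 = x.2.1
      · have h0 : S x = ∅ := by
          rw [Finset.eq_empty_iff_forall_notMem]
          intro lam hlam
          rw [hS, Finset.mem_filter] at hlam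
          obtain ⟨_, h1, h2⟩ := hlam
          rw [← hx, h1, Nat.mul_add] at h2
          have h3 : (n + 3) ^ 2 * (x.2.2 : ℕ) ≤ (n + 3) ^ 2 * G :=
            Nat.mul_le_mul_left _ (le_of_lt x.2.2.2)
          omega
        rw [h0, Finset.card_empty, Nat.mul_zero]
        exact Nat.zero_le _
      · apply block x.1 x.2.1 hx x.2.2 (S x)
        intro lam hlam
        rw [hS, Finset.mem_filter] at hlam
        obtain ⟨h1, h2, h3⟩ := hlam
        refine ⟨h1, ?_, h2⟩
        have h4 : (n + 3) ^ 2 * (T * ((x.1 : ℕ) + 1)) ≤ s := by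
          calc (n + 3) ^ 2 * (T * ((x.1 : ℕ) + 1)) ≤ (n + 3) ^ 2 * (T * (n + 3)) :=
                Nat.mul_le_mul_left _ (Nat.mul_le_mul_left _ x.1.2)
            _ = (n + 3) ^ 3 * T := by ring
            _ ≤ s := hT1
        have h5 : (n + 3) ^ 2 * (ex (fun l => (lam l : ℕ)) (x.2.1 + 1) + T * ((x.1 : ℕ) + 1)) ≤
            (n + 3) ^ 2 * lam x.2.1 := by
          rw [Nat.mul_add]
          omega
        exact Nat.le_of_mul_le_mul_left h5 (by positivity)
    have hsum : (T + 1) * B.card ≤ (n + 3) ^ 2 * G * (Parts (n + 3) s).card := by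
      calc (T + 1) * B.card ≤ (T + 1) * (Finset.univ.biUnion S).card :=
            Nat.mul_le_mul_left _ (Finset.card_le_card hcov)
        _ ≤ (T + 1) * ∑ x, (S x).card := Nat.mul_le_mul_left _ Finset.card_biUnion_le
        _ = ∑ x, (T + 1) * (S x).card := by rw [Finset.mul_sum]
        _ ≤ ∑ _x : Fin (n + 3) × Fin (n + 3) × Fin G, (Parts (n + 3) s).card :=
            Finset.sum_le_sum (fun x _ => hone x)
        _ = (n + 3) ^ 2 * G * (Parts (n + 3) s).card := by
            rw [Finset.sum_const, Finset.card_univ, Fintype.card_prod, Fintype.card_prod,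
              Fintype.card_fin, Fintype.card_fin, smul_eq_mul]
            ring
    calc s * B.card ≤ ((n + 3) ^ 3 * (T + 1)) * B.card := Nat.mul_le_mul_right _ hT2
      _ = (n + 3) ^ 3 * ((T + 1) * B.card) := by ring
      _ ≤ (n + 3) ^ 3 * ((n + 3) ^ 2 * G * (Parts (n + 3) s).card) :=
          Nat.mul_le_mul_left _ hsum
      _ = (n + 3) ^ 5 * G * (Parts (n + 3) s).card := by ring

end Vale.Agent.P181.FR
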