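import Vale.Agent.P181.R2.H182.VDefs

set_option autoImplicit false

/-! V6: the polarised substitutions are jointly injective. -/

namespace Vale.Agent.P181.VT

open Vale.Agent.P181 Vale.Agent.P181.H280 Vale.Agent.P181.FR

namespace V6H

/-- Polynomial functions of one variable. -/
def IsP (g : ℂ → ℂ) : Prop := ∃ P : Polynomial ℂ, ∀ s, g s = P.eval s

theorem IsP.const (c : ℂ) : IsP (fun _ => c) := ⟨Polynomial.C c, fun s => by simp⟩

theorem IsP.id : IsP (fun s => s) := ⟨Polynomial.X, fun s => by simp⟩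

theorem IsP.add {f g : ℂ → ℂ} (hf : IsP f) (hg : IsP g) : IsP (fun s => f s + g s) := by
  obtain ⟨P, hP⟩ := hf
  obtain ⟨Q, hQ⟩ := hg
  exact ⟨P + Q, fun s => by
    show f s + g s = _
    rw [hP, hQ, Polynomial.eval_add]⟩

theorem IsP.mul {f g : ℂ → ℂ} (hf : IsP f) (hg : IsP g) : IsP (fun s => f s * g s) := by
  obtain ⟨P, hP⟩ := hf
  obtain ⟨Q, hQ⟩ := hg
  exact ⟨P * Q, fun s => by
    show f s * g s = _
    rw [hP, hQ, Polynomial.eval_mul]⟩

theorem IsP.pow {f : ℂ → ℂ} (hf : IsP f) (n : ℕ) : IsP (fun s => f s ^ n) := by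
  obtain ⟨P, hP⟩ := hf
  exact ⟨P ^ n, fun s => by
    show f s ^ n = _
    rw [hP, Polynomial.eval_pow]⟩

theorem IsP.sum {ι : Type} (S : Finset ι) {f : ι → ℂ → ℂ} (h : ∀ i ∈ S, IsP (f i)) :
    IsP (fun s => ∑ i ∈ S, f i s) := by
  classical
  induction S using Finset.induction_on with
  | empty => simpa using IsP.const 0
  | insert a S ha ih =>
    have h1 := h a (Finset.mem_insert_self _ _)
    have h2 := ih (fun i hi => h i (Finset.mem_insert_of_mem hi))
    have := h1.add h2
    simpa only [Finset.sum_insert ha] using this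

theorem IsP.prod {ι : Type} (S : Finset ι) {f : ι → ℂ → ℂ} (h : ∀ i ∈ S, IsP (f i)) :
    IsP (fun s => ∏ i ∈ S, f i s) := by
  classical
  induction S using Finset.induction_on with
  | empty => simpa using IsP.const 1
  | insert a S ha ih =>
    have h1 := h a (Finset.mem_insert_self _ _)
    have h2 := ih (fun i hi => h i (Finset.mem_insert_of_mem hi))
    have := h1.mul h2
    simpa only [Finset.prod_insert ha] using this

theorem IsP.det {n : Type} [Fintype n] [DecidableEq n] {A : ℂ → Matrix n n ℂ}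
    (h : ∀ i j, IsP (fun s => A s i j)) : IsP (fun s => (A s).det) := by
  simp only [Matrix.det_apply']
  apply IsP.sum
  intro σ _
  apply IsP.mul (IsP.const _)
  apply IsP.prod
  intro i _
  exact h _ _

theorem IsP.mv {σ : Type} {x : ℂ → σ → ℂ} (h : ∀ i, IsP (fun s => x s i))
    (q : MvPolynomial σ ℂ) : IsP (fun s => MvPolynomial.eval (x s) q) := by
  induction q using MvPolynomial.induction_on with
  | C a => simpa using IsP.const a
  | add p q hp hq =>
    simp only [map_add]
    exact hp.add hq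
  | mul_X p i hp =>
    simp only [map_mul, MvPolynomial.eval_X]
    exact hp.mul (h i)

theorem IsP.mp {B m a : ℕ} {F : (Fin B → Fin m → ℂ) → ℂ} (hF : F ∈ MP B m a)
    {x : ℂ → Fin B → Fin m → ℂ} (h : ∀ j i, IsP (fun s => x s j i)) :
    IsP (fun s => F (x s)) := by
  induction hF using Submodule.span_induction with
  | mem F hF =>
    obtain ⟨q, _, rfl⟩ := hF
    exact IsP.prod _ (fun j _ => IsP.mv (h j) (q j))
  | zero => exact IsP.const 0
  | add F G _ _ hF hG => exact hF.add hG
  | smul c F _ hF => exact (IsP.const c).mul hF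

theorem IsP.adj {n : Type} [Fintype n] [DecidableEq n] {A : ℂ → Matrix n n ℂ}
    (h : ∀ i j, IsP (fun s => A s i j)) (i j : n) : IsP (fun s => (A s).adjugate i j) := by
  simp only [Matrix.adjugate_apply]
  apply IsP.det
  intro a b
  simp only [Matrix.updateRow_apply]
  by_cases ha : a = j
  · simp only [ha, if_true]
    exact IsP.const _
  · simp only [ha, if_false]
    exact h a b

theorem IsP.yb {r : ℕ} {w : ℂ → Fin (nn r) → Fin (r + 1) → ℂ}
    (h : ∀ j i, IsP (fun s => w s j i)) (i j : Fin (r + 1)) : IsP (fun s => Yb (w s) i j) := by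
  unfold Yb
  simp only [Matrix.mul_diagonal]
  apply IsP.mul
  · exact IsP.adj (fun a b => h _ _) i j
  · apply IsP.mul
    · apply IsP.det
      intro a b
      unfold WB
      refine Fin.cases ?_ (fun u => ?_) a
      · simp only [Fin.cons_zero]
        exact h _ _
      · simp only [Fin.cons_succ]
        exact h _ _
    · exact IsP.det (fun a b => h _ _)

theorem IsP.yy {r k : ℕ} (t : Fin k → ℂ) {p : ℂ → Fin (k * nn r) → Fin (r + 1) → ℂ}
    (h : ∀ j i, IsP (fun s => p s j i)) (i j : Fin (r + 1)) : IsP (fun s => YY t (p s) i j) := by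
  unfold YY
  simp only [Matrix.sum_apply, Matrix.smul_apply, smul_eq_mul]
  apply IsP.sum
  intro β _
  exact (IsP.const _).mul (IsP.yb (fun a b => h _ _) i j)

/-- Points at which linearly independent functions have a nonzero determinant. -/
theorem exists_points {α : Type} {M : ℕ} (w : Fin M → α → ℂ) (hw : LinearIndependent ℂ w) :
    ∃ X : Fin M → α, (Matrix.of (fun l k => w k (X l))).det ≠ 0 := by
  classical
  let S : Set (Fin M → ℂ) := Set.range (fun X : α => fun k => w k X)
  have hS : Submodule.span ℂ S = ⊤ := by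
    by_contra hne
    obtain ⟨f, hf0, hf⟩ := Submodule.exists_le_ker_of_lt_top _ (lt_top_iff_ne_top.mpr hne)
    apply hf0
    have h1 : ∀ v : Fin M → ℂ, f v = ∑ k, v k * f (Pi.single k 1) := by
      intro v
      conv_lhs => rw [pi_eq_sum_univ' v]
      rw [map_sum]
      apply Finset.sum_congr rfl
      intro k _
      rw [map_smul, smul_eq_mul]
    have h2 : ∑ k, f (Pi.single k 1) • w k = 0 := by
      funext X
      have h3 : f (fun k => w k X) = 0 := hf (Submodule.subset_span ⟨X, rfl⟩)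
      rw [h1] at h3
      rw [Finset.sum_apply, Pi.zero_apply, ← h3]
      apply Finset.sum_congr rfl
      intro k _
      rw [Pi.smul_apply, smul_eq_mul]
      ring
    have h4 := (Fintype.linearIndependent_iff.mp hw) _ h2
    apply LinearMap.ext
    intro v
    rw [h1, LinearMap.zero_apply]
    apply Finset.sum_eq_zero
    intro k _
    rw [h4 k, mul_zero]
  let b0 := Module.Basis.ofSpan (K := ℂ) hS.ge
  let e := b0.indexEquiv (Pi.basisFun ℂ (Fin M))
  let b := b0.reindex e
  have hb : ∀ l, b l ∈ S := by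
    intro l
    apply Module.Basis.ofSpan_subset hS.ge
    refine ⟨e.symm l, ?_⟩
    rw [Module.Basis.reindex_apply]
  choose X hX using hb
  refine ⟨X, ?_⟩
  have h5 : LinearIndependent ℂ (Matrix.of (fun l k => w k (X l))).row := by
    have h6 : (Matrix.of (fun l k => w k (X l))).row = b := by
      funext l
      rw [← hX l]
      rfl
    rw [h6]
    exact b.linearIndependent
  have h7 := Matrix.linearIndependent_rows_iff_isUnit.mp h5
  exact ((Matrix.isUnit_iff_isUnit_det _).mp h7).ne_zero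

section Hom

variable (m D : ℕ)

/-- Exponents of the monomials of degree `D` in the entries of an `m × m` matrix. -/
abbrev Ix : Type := {n : Fin m × Fin m → Fin (D + 1) // ∑ u, (n u : ℕ) = D}

/-- The monomial functions. -/
def mono (n : Ix m D) (X : Matrix (Fin m) (Fin m) ℂ) : ℂ := ∏ u, X u.1 u.2 ^ (n.1 u : ℕ)

/-- The homogeneous polynomial functions of degree `D` on the `m × m` matrices. -/
def WW : Submodule ℂ (Matrix (Fin m) (Fin m) ℂ → ℂ) := Submodule.span ℂ (Set.range (mono m D))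

theorem WW_finrank : Module.finrank ℂ (WW m D) ≤ (D + 1) ^ (m * m) := by
  classical
  refine le_trans (finrank_range_le_card (mono m D)) ?_
  refine le_trans (Fintype.card_subtype_le _) ?_
  simp

theorem WW_smul {Φ : Matrix (Fin m) (Fin m) ℂ → ℂ} (h : Φ ∈ WW m D) (s : ℂ)
    (X : Matrix (Fin m) (Fin m) ℂ) : Φ (s • X) = s ^ D * Φ X := by
  induction h using Submodule.span_induction with
  | mem Φ hΦ =>
    obtain ⟨n, rfl⟩ := hΦ
    unfold mono
    simp only [Matrix.smul_apply, smul_eq_mul, mul_pow]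
    rw [Finset.prod_mul_distrib, Finset.prod_pow_eq_pow_sum, n.2]
  | zero => simp
  | add F G _ _ hF hG => rw [Pi.add_apply, Pi.add_apply, hF, hG]; ring
  | smul c F _ hF => rw [Pi.smul_apply, Pi.smul_apply, hF, smul_eq_mul, smul_eq_mul]; ring

theorem WW_isP {Φ : Matrix (Fin m) (Fin m) ℂ → ℂ} (h : Φ ∈ WW m D)
    {X : ℂ → Matrix (Fin m) (Fin m) ℂ} (hX : ∀ i j, IsP (fun s => X s i j)) :
    IsP (fun s => Φ (X s)) := by
  induction h using Submodule.span_induction with
  | mem Φ hΦ =>
    obtain ⟨n, rfl⟩ := hΦ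
    exact IsP.prod _ (fun u _ => (hX u.1 u.2).pow _)
  | zero => exact IsP.const 0
  | add F G _ _ hF hG => exact hF.add hG
  | smul c F _ hF => exact (IsP.const c).mul hF

theorem WW_of_hom (P : MvPolynomial (Fin m × Fin m) ℂ) (hP : P.IsHomogeneous D) :
    (fun X : Matrix (Fin m) (Fin m) ℂ => MvPolynomial.eval (fun u => X u.1 u.2) P) ∈ WW m D := by
  classical
  have h1 : (fun X : Matrix (Fin m) (Fin m) ℂ => MvPolynomial.eval (fun u => X u.1 u.2) P) =
      ∑ d ∈ P.support, P.coeff d • (fun X : Matrix (Fin m) (Fin m) ℂ =>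
        ∏ u, X u.1 u.2 ^ (d u)) := by
    funext X
    rw [MvPolynomial.eval_eq', Finset.sum_apply]
    rfl
  rw [h1]
  apply Submodule.sum_mem
  intro d hd
  apply Submodule.smul_mem
  apply Submodule.subset_span
  have h2 : ∑ u, d u = D := by
    have := hP (MvPolynomial.mem_support_iff.mp hd)
    rw [← this, Finsupp.weight_apply, Finsupp.sum_fintype]
    · simp
    · simp
  have h3 : ∀ u, d u < D + 1 := by
    intro u
    have : d u ≤ ∑ u, d u :=
      Finset.single_le_sum (f := fun u => d u) (fun _ _ => Nat.zero_le _) (Finset.mem_univ u)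
    omega
  exact ⟨⟨fun u => ⟨d u, h3 u⟩, h2⟩, rfl⟩

end Hom

theorem sub_mem {B m c : ℕ} {F : (Fin B → Fin m → ℂ) → ℂ} (hF : F ∈ MP B m c)
    (p : Fin B → Fin m → ℂ) :
    (fun X : Matrix (Fin m) (Fin m) ℂ => F (fun j => Matrix.vecMul (p j) X)) ∈
      WW m (B * c) := by
  classical
  induction hF using Submodule.span_induction with
  | mem F hF =>
    obtain ⟨q, hq, rfl⟩ := hF
    let P : Fin B → MvPolynomial (Fin m × Fin m) ℂ := fun j =>
      MvPolynomial.aeval (fun i : Fin m => ∑ a, MvPolynomial.C (p j a) * MvPolynomial.X (a, i)) (q j)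
    have hP : ∀ j, (P j).IsHomogeneous c := by
      intro j
      have h1 := (hq j).aeval
        (fun i : Fin m => ∑ a, MvPolynomial.C (p j a) * MvPolynomial.X (a, i)) (n := 1) (by
          intro i
          apply MvPolynomial.IsHomogeneous.sum
          intro a _
          have h2 := (MvPolynomial.isHomogeneous_C (Fin m × Fin m) (p j a)).mul
            (MvPolynomial.isHomogeneous_X ℂ (a, i))
          simpa using h2)
      rw [one_mul] at h1
      exact h1
    have hprod : (∏ j, P j).IsHomogeneous (B * c) := by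
      have h1 := MvPolynomial.IsHomogeneous.prod Finset.univ P (fun _ => c) (fun j _ => hP j)
      simpa using h1
    have h2 := WW_of_hom m (B * c) _ hprod
    have h3 : (fun X : Matrix (Fin m) (Fin m) ℂ =>
        MvPolynomial.eval (fun u => X u.1 u.2) (∏ j, P j)) =
        fun X : Matrix (Fin m) (Fin m) ℂ => ∏ j, MvPolynomial.eval (Matrix.vecMul (p j) X) (q j) := by
      funext X
      rw [map_prod]
      apply Finset.prod_congr rfl
      intro j _
      have h4 : (MvPolynomial.eval (fun u : Fin m × Fin m => X u.1 u.2)) (P j) =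
          MvPolynomial.eval (fun i => MvPolynomial.eval (fun u : Fin m × Fin m => X u.1 u.2)
            (∑ a, MvPolynomial.C (p j a) * MvPolynomial.X (a, i))) (q j) := by
        show (MvPolynomial.eval _) (MvPolynomial.aeval _ (q j)) = _
        rw [MvPolynomial.aeval_def, MvPolynomial.eval_eval₂]
        rw [MvPolynomial.eval, MvPolynomial.coe_eval₂Hom]
        congr 1
        ext x
        simp
      rw [h4]
      congr 2
      funext i
      rw [map_sum]
      simp [Matrix.vecMul, dotProduct]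
    rw [h3] at h2
    exact h2
  | zero => exact Submodule.zero_mem _
  | add F G _ _ hF hG => exact Submodule.add_mem _ hF hG
  | smul c F _ hF => exact Submodule.smul_mem _ c hF

end V6H

open V6H

/-- The literal statement of V5. -/
def V5S : Prop := ∀ {r k c N N0 N1 : ℕ} (τ : Fin N → Fin k → ℂ) (α : Fin N → ℂ)
  (q : (Fin (nn r) → Fin (r + 1) → ℂ) → ℂ) (z : Fin (nn r) → Fin (r + 1) → ℂ),
  Polar k (nn r * c) τ α → SepQ r N0 N1 q z → ∃ C : ℂ, C ≠ 0 ∧
  ∀ Φ : Matrix (Fin (r + 1)) (Fin (r + 1)) ℂ → ℂ,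
    (∀ (s : ℂ) (X : Matrix (Fin (r + 1)) (Fin (r + 1)) ℂ), Φ (s • X) = s ^ (k * nn r * c) * Φ X) →
    ∑ σ : Equiv.Perm (Fin (k * nn r)),
      QQ q (fun j => z (finProdFinEquiv.symm (σ j)).2) *
        ∑ i, α i * Φ (YY (τ i) (fun j => z (finProdFinEquiv.symm (σ j)).2)) = C * Φ (Yb z)

theorem v6_of (V5 : V5S) : ∀ {r k c N N0 N1 : ℕ} (τ : Fin N → Fin k → ℂ) (α : Fin N → ℂ)
    (q : (Fin (nn r) → Fin (r + 1) → ℂ) → ℂ) (z : Fin (nn r) → Fin (r + 1) → ℂ),
    Polar k (nn r * c) τ α → SepQ r N0 N1 q z →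
    ∃ (M : ℕ) (H : Fin M → Matrix (Fin (r + 1)) (Fin (r + 1)) ℂ),
      M ≤ (k * nn r * c + 1) ^ ((r + 1) * (r + 1)) ∧
      ∀ F ∈ MP (k * nn r) (r + 1) c, F ≠ 0 →
        (∀ (σ : Equiv.Perm (Fin (k * nn r))) (p : Fin (k * nn r) → Fin (r + 1) → ℂ),
          F (fun j => p (σ j)) = F p) →
        ∃ (l : Fin M) (p : Fin (k * nn r) → Fin (r + 1) → ℂ), ∑ σ : Equiv.Perm (Fin (k * nn r)),
          QQ q (fun j => p (σ j)) * TH τ α (H l) F (fun j => p (σ j)) ≠ 0 := by
  classical
  intro r k c N N0 N1 τ α q z hpol hsep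
  obtain ⟨C, hC0, hC⟩ := V5 τ α q z hpol hsep
  obtain ⟨D, hD⟩ : ∃ D, D = k * nn r * c := ⟨_, rfl⟩
  obtain ⟨M, hM⟩ : ∃ M, M = Module.finrank ℂ (WW (r + 1) D) := ⟨_, rfl⟩
  have : Module.Finite ℂ (WW (r + 1) D) := by
    unfold WW
    exact Module.Finite.span_of_finite ℂ (Set.finite_range _)
  let bs : Module.Basis (Fin M) ℂ (WW (r + 1) D) :=
    (Module.finBasis ℂ (WW (r + 1) D)).reindex (finCongr hM.symm)
  let w : Fin M → Matrix (Fin (r + 1)) (Fin (r + 1)) ℂ → ℂ := fun l => (bs l : _)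
  have hwW : ∀ l, w l ∈ WW (r + 1) D := fun l => (bs l).2
  have hwli : LinearIndependent ℂ w := by
    have h1 := bs.linearIndependent
    exact h1.map' (WW (r + 1) D).subtype (Submodule.ker_subtype _)
  obtain ⟨X, hX⟩ := exists_points w hwli
  have hYz : IsUnit (Yb z).det := isUnit_iff_ne_zero.mpr hsep.2.2.2.2
  refine ⟨M, fun l => (Yb z)⁻¹ * X l, ?_, ?_⟩
  · rw [hM, ← hD]
    exact WW_finrank (r + 1) D
  intro F hF hF0 hsym
  obtain ⟨p1, hp1⟩ : ∃ p1, F p1 ≠ 0 := by
    by_contra hcon
    push Not at hcon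
    exact hF0 (funext hcon)
  obtain ⟨p0, hp0⟩ : ∃ p0 : Fin (k * nn r) → Fin (r + 1) → ℂ,
      p0 = fun j => z (finProdFinEquiv.symm j).2 := ⟨_, rfl⟩
  let pl : ℂ → Fin (k * nn r) → Fin (r + 1) → ℂ := fun s j i => p0 j i + s * (p1 j i - p0 j i)
  have hpl : ∀ j i, IsP (fun s => pl s j i) := fun j i =>
    (IsP.const _).add (IsP.id.mul (IsP.const _))
  have hpl0 : pl 0 = p0 := by
    funext j i
    simp [pl]
  have hpl1 : pl 1 = p1 := by
    funext j i
    simp [pl]
  -- the functionals
  let Lm : (Fin (k * nn r) → Fin (r + 1) → ℂ) → (Matrix (Fin (r + 1)) (Fin (r + 1)) ℂ → ℂ) → ℂ :=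
    fun p Φ => ∑ σ : Equiv.Perm (Fin (k * nn r)), QQ q (fun j => p (σ j)) *
      ∑ i, α i * Φ (YY (τ i) (fun j => p (σ j)))
  let Mx : ℂ → Matrix (Fin M) (Fin M) ℂ := fun s =>
    Matrix.of (fun l k' => Lm (pl s) (fun Z => w k' (Z * ((Yb z)⁻¹ * X l))))
  have hMxP : IsP (fun s => (Mx s).det) := by
    apply IsP.det
    intro l k'
    show IsP (fun s => Lm (pl s) (fun Z => w k' (Z * ((Yb z)⁻¹ * X l))))
    apply IsP.sum
    intro σ _
    apply IsP.mul
    · unfold QQ
      apply IsP.prod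
      intro β _
      exact IsP.mp hsep.1 (fun a b => hpl _ _)
    · apply IsP.sum
      intro i _
      apply (IsP.const _).mul
      apply WW_isP (r + 1) D (hwW k')
      intro a b
      simp only [Matrix.mul_apply (M := YY _ _)]
      apply IsP.sum
      intro e _
      apply IsP.mul
      · exact IsP.yy _ (fun a b => hpl _ _) a e
      · exact IsP.const _
  have hMx0 : (Mx 0).det ≠ 0 := by
    have h1 : Mx 0 = C • Matrix.of (fun l k' => w k' (X l)) := by
      ext l k'
      show Lm (pl 0) (fun Z => w k' (Z * ((Yb z)⁻¹ * X l))) = C * w k' (X l)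
      rw [hpl0, hp0]
      have h2 := hC (fun Z => w k' (Z * ((Yb z)⁻¹ * X l))) (by
        intro s Z
        rw [Matrix.smul_mul, ← hD]
        exact WW_smul (r + 1) D (hwW k') s _)
      have h3 : Yb z * ((Yb z)⁻¹ * X l) = X l := by
        rw [← Matrix.mul_assoc, Matrix.mul_nonsing_inv _ hYz, Matrix.one_mul]
      rw [h3] at h2
      exact h2
    rw [h1, Matrix.det_smul]
    exact mul_ne_zero (pow_ne_zero _ hC0) hX
  have hFP : IsP (fun s => F (pl s)) := IsP.mp hF hpl
  obtain ⟨P1, hP1'⟩ := hMxP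
  obtain ⟨P2, hP2'⟩ := hFP
  have hP1 : ∀ s, (Mx s).det = P1.eval s := hP1'
  have hP2 : ∀ s, F (pl s) = P2.eval s := hP2'
  have hP10 : P1 ≠ 0 := by
    intro h
    apply hMx0
    rw [hP1 0, h, Polynomial.eval_zero]
  have hP20 : P2 ≠ 0 := by
    intro h
    apply hp1
    have := hP2 1
    rw [hpl1, h, Polynomial.eval_zero] at this
    exact this
  obtain ⟨s, hs⟩ := Polynomial.exists_eval_ne_zero_of_natDegree_lt_card (P1 * P2)
    (mul_ne_zero hP10 hP20) (by
      rw [Cardinal.mk_complex]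
      exact Cardinal.natCast_lt_aleph0.trans Cardinal.aleph0_lt_continuum)
  rw [Polynomial.eval_mul] at hs
  have hs1 : (Mx s).det ≠ 0 := by
    rw [hP1 s]
    exact left_ne_zero_of_mul hs
  have hs2 : F (pl s) ≠ 0 := by
    rw [hP2 s]
    exact right_ne_zero_of_mul hs
  by_contra hcon
  push Not at hcon
  -- the substituted function
  let Fp : Matrix (Fin (r + 1)) (Fin (r + 1)) ℂ → ℂ :=
    fun Z => F (fun j => Matrix.vecMul (pl s j) Z)
  have hFpW : Fp ∈ WW (r + 1) D := by
    rw [hD]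
    exact sub_mem hF (pl s)
  let a : Fin M → ℂ := fun l => bs.repr ⟨Fp, hFpW⟩ l
  have hFa : Fp = ∑ l, a l • w l := by
    have h1 := bs.sum_repr ⟨Fp, hFpW⟩
    have h2 := congrArg (fun x : WW (r + 1) D => (x : Matrix (Fin (r + 1)) (Fin (r + 1)) ℂ → ℂ)) h1
    simp only [Submodule.coe_sum, Submodule.coe_smul] at h2
    exact h2.symm
  have hLF : ∀ l, Lm (pl s) (fun Z => Fp (Z * ((Yb z)⁻¹ * X l))) = 0 := by
    intro l
    have h1 := hcon l (pl s)
    rw [← h1]
    apply Finset.sum_congr rfl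
    intro σ _
    congr 1
    unfold TH
    apply Finset.sum_congr rfl
    intro i _
    congr 1
    exact (hsym σ (fun j => Matrix.vecMul (pl s j)
      (YY (τ i) (fun j => pl s (σ j)) * ((Yb z)⁻¹ * X l)))).symm
  have hLa : (Mx s).mulVec a = 0 := by
    funext l
    rw [Pi.zero_apply, ← hLF l]
    show ∑ k', Lm (pl s) (fun Z => w k' (Z * ((Yb z)⁻¹ * X l))) * a k' = _
    simp only [Lm]
    rw [hFa]
    simp only [Finset.sum_apply, Pi.smul_apply, smul_eq_mul]
    simp only [Finset.mul_sum, Finset.sum_mul]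
    rw [Finset.sum_comm]
    apply Finset.sum_congr rfl
    intro σ _
    rw [Finset.sum_comm]
    apply Finset.sum_congr rfl
    intro i _
    apply Finset.sum_congr rfl
    intro k' _
    ring
  have ha0 : a = 0 := Matrix.eq_zero_of_mulVec_eq_zero hs1 hLa
  apply hs2
  have h1 : Fp 1 = F (pl s) := by
    show F (fun j => Matrix.vecMul (pl s j) 1) = F (pl s)
    simp only [Matrix.vecMul_one]
  rw [← h1, hFa, ha0]
  simp

end Vale.Agent.P181.VT
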