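import Mathlib.Algebra.BigOperators.Fin
import Mathlib.Tactic

set_option autoImplicit false

namespace Vale.Agent.P181.FR

/-- Splitting a partition into two parts of prescribed sizes, proportionally. -/
theorem split_part {n : ℕ} (nu : Fin (n + 3) → ℕ) (x y K0 K1 L : ℕ) (hxy : 0 < x + y)
    (hM : ∑ i, nu i = x + y) (hanti : ∀ i j : Fin (n + 3), 1 ≤ i → i ≤ j → nu j ≤ nu i)
    (h01 : nu 1 ≤ nu 0) (h12 : nu 2 ≤ nu 1)
    (a0 : K0 * (x + y) ≤ (nu 0 - nu 1) * x)
    (a1 : (K1 + (n + 4)) * (x + y) ≤ (nu 0 - nu 1) * y)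
    (b0 : (L + 1) * (x + y) ≤ (nu 1 - nu 2) * x)
    (b1 : (L + 1) * (x + y) ≤ (nu 1 - nu 2) * y) :
    ∃ mu0 mu1 : Fin (n + 3) → ℕ, mu0 + mu1 = nu ∧ ∑ i, mu0 i = x ∧ ∑ i, mu1 i = y ∧
      mu0 1 + K0 ≤ mu0 0 ∧ mu1 1 + K1 ≤ mu1 0 ∧ mu0 2 + L ≤ mu0 1 ∧ mu1 2 + L ≤ mu1 1 ∧
      (∀ i j : Fin (n + 3), 1 ≤ i → i ≤ j → mu0 j ≤ mu0 i) ∧
      (∀ i j : Fin (n + 3), 1 ≤ i → i ≤ j → mu1 j ≤ mu1 i) := by
  set M := x + y with hMdef
  let f : Fin (n + 3) → ℕ := fun i => nu i * x / M
  have hf1 : ∀ i, f i * M ≤ nu i * x := fun i => Nat.div_mul_le_self _ _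
  have hf2 : ∀ i, nu i * x + 1 ≤ f i * M + M := by
    intro i
    have h := Nat.lt_div_mul_add hxy (a := nu i * x)
    exact h
  have hfle : ∀ i, f i ≤ nu i := by
    intro i
    have h : f i * M ≤ nu i * M :=
      (hf1 i).trans (Nat.mul_le_mul_left _ (by omega))
    exact Nat.le_of_mul_le_mul_right h hxy
  set S := ∑ i : Fin (n + 2), f i.succ with hS
  have hsum : nu 0 + ∑ i : Fin (n + 2), nu i.succ = M := by
    exact (Fin.sum_univ_succ nu).symm.trans hM
  have hS1 : S * M + nu 0 * x ≤ M * x := by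
    have h1 : S * M ≤ (∑ i : Fin (n + 2), nu i.succ) * x := by
      rw [hS, Finset.sum_mul, Finset.sum_mul]
      exact Finset.sum_le_sum (fun i _ => hf1 _)
    calc S * M + nu 0 * x ≤ (∑ i : Fin (n + 2), nu i.succ) * x + nu 0 * x :=
          Nat.add_le_add_right h1 _
      _ = (nu 0 + ∑ i : Fin (n + 2), nu i.succ) * x := by ring
      _ = M * x := by rw [hsum]
  have hS2 : M * x ≤ S * M + nu 0 * x + (n + 2) * M := by
    have h1 : (∑ i : Fin (n + 2), nu i.succ) * x ≤ S * M + (n + 2) * M := by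
      have h2 : ∑ i : Fin (n + 2), nu i.succ * x ≤ ∑ i : Fin (n + 2), (f i.succ * M + M) :=
        Finset.sum_le_sum (fun i _ => by have := hf2 i.succ; omega)
      rw [Finset.sum_add_distrib, Finset.sum_const, Finset.card_univ, Fintype.card_fin,
        smul_eq_mul, ← Finset.sum_mul, ← Finset.sum_mul] at h2
      exact h2
    calc M * x = (nu 0 + ∑ i : Fin (n + 2), nu i.succ) * x := by rw [hsum]
      _ = (∑ i : Fin (n + 2), nu i.succ) * x + nu 0 * x := by ring
      _ ≤ S * M + (n + 2) * M + nu 0 * x := Nat.add_le_add_right h1 _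
      _ = _ := by ring
  have hSx : S ≤ x := by
    have h : S * M ≤ x * M := by
      calc S * M ≤ M * x := (Nat.le_add_right _ _).trans hS1
        _ = x * M := Nat.mul_comm _ _
    exact Nat.le_of_mul_le_mul_right h hxy
  obtain ⟨T, hT⟩ := Nat.exists_eq_add_of_le hSx
  have hT1 : nu 0 * x ≤ T * M := by
    have : M * x = S * M + T * M := by rw [hT]; ring
    omega
  have hT2 : T * M ≤ nu 0 * x + (n + 2) * M := by
    have : M * x = S * M + T * M := by rw [hT]; ring
    omega
  obtain ⟨g1, hg1⟩ := Nat.exists_eq_add_of_le h01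
  obtain ⟨g2, hg2⟩ := Nat.exists_eq_add_of_le h12
  have e1 : nu 0 - nu 1 = g1 := by omega
  have e2 : nu 1 - nu 2 = g2 := by omega
  rw [e1] at a0 a1
  rw [e2] at b0 b1
  have k0 : nu 0 * x = nu 1 * x + g1 * x := by rw [hg1]; ring
  have k1 : nu 0 * y = nu 1 * y + g1 * y := by rw [hg1]; ring
  have k2 : nu 1 * x = nu 2 * x + g2 * x := by rw [hg2]; ring
  have k3 : nu 1 * y = nu 2 * y + g2 * y := by rw [hg2]; ring
  have m0 : nu 0 * M = nu 0 * x + nu 0 * y := by rw [hMdef]; ring
  have m1 : nu 1 * M = nu 1 * x + nu 1 * y := by rw [hMdef]; ring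
  have m2 : nu 2 * M = nu 2 * x + nu 2 * y := by rw [hMdef]; ring
  have hTle : T ≤ nu 0 := by
    have h : T * M ≤ nu 0 * M := by
      have : (K1 + (n + 4)) * M = K1 * M + (n + 2) * M + 2 * M := by ring
      omega
    exact Nat.le_of_mul_le_mul_right h hxy
  have hf1s : ∀ i : Fin (n + 3), i ≠ 0 →
      (if i = 0 then T else f i) = f i := fun i hi => if_neg hi
  have h10 : (1 : Fin (n + 3)) ≠ 0 := by
    intro h; exact absurd (congrArg Fin.val h) (by simp)
  have h20 : (2 : Fin (n + 3)) ≠ 0 := by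
    intro h
    have := congrArg Fin.val h
    rw [Fin.val_two] at this
    simp at this
  have hge : ∀ i : Fin (n + 3), 1 ≤ i → i ≠ 0 := by
    intro i hi h
    rw [h, Fin.le_def, Fin.val_one] at hi
    simp at hi
  refine ⟨fun i => if i = 0 then T else f i, fun i => nu i - (if i = 0 then T else f i),
    ?_, ?_, ?_, ?_, ?_, ?_, ?_, ?_, ?_⟩
  · funext i
    simp only [Pi.add_apply]
    apply Nat.add_sub_cancel'
    by_cases hi : i = 0
    · rw [if_pos hi, hi]; exact hTle
    · rw [if_neg hi]; exact hfle i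
  · rw [Fin.sum_univ_succ, if_pos rfl]
    have : ∀ i : Fin (n + 2), (if i.succ = 0 then T else f i.succ) = f i.succ := fun i =>
      if_neg (Fin.succ_ne_zero i)
    rw [Finset.sum_congr rfl (fun i _ => this i), ← hS, hT, Nat.add_comm]
  · have h1 : ∑ i : Fin (n + 3), (if i = 0 then T else f i) = x := by
      rw [Fin.sum_univ_succ, if_pos rfl]
      have : ∀ i : Fin (n + 2), (if i.succ = 0 then T else f i.succ) = f i.succ := fun i =>
        if_neg (Fin.succ_ne_zero i)
      rw [Finset.sum_congr rfl (fun i _ => this i), ← hS, hT, Nat.add_comm]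
    have h2 : ∑ i : Fin (n + 3), (if i = 0 then T else f i) +
        ∑ i : Fin (n + 3), (nu i - (if i = 0 then T else f i)) = x + y := by
      rw [← Finset.sum_add_distrib]
      refine Eq.trans ?_ hM
      apply Finset.sum_congr rfl
      intro i _
      apply Nat.add_sub_cancel'
      by_cases hi : i = 0
      · rw [if_pos hi, hi]; exact hTle
      · rw [if_neg hi]; exact hfle i
    rw [h1] at h2
    exact Nat.add_left_cancel h2
  · simp only [if_neg h10, if_true]
    have h : (f 1 + K0) * M ≤ T * M := by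
      have h1 := hf1 1
      have : (f 1 + K0) * M = f 1 * M + K0 * M := by ring
      omega
    exact Nat.le_of_mul_le_mul_right h hxy
  · simp only [if_neg h10, if_true]
    obtain ⟨d, hd⟩ := Nat.exists_eq_add_of_le (hfle 1)
    obtain ⟨r, hr⟩ := Nat.exists_eq_add_of_le hTle
    have e3 : nu 1 - f 1 = d := by omega
    have e4 : nu 0 - T = r := by omega
    rw [e3, e4]
    have h : (d + K1) * M ≤ r * M := by
      have h1 := hf2 1
      have h3 : nu 1 * M = f 1 * M + d * M := by rw [hd]; ring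
      have h4 : nu 0 * M = T * M + r * M := by rw [hr]; ring
      have h5 : (K1 + (n + 4)) * M = K1 * M + (n + 2) * M + 2 * M := by ring
      have h6 : (d + K1) * M = d * M + K1 * M := by ring
      omega
    exact Nat.le_of_mul_le_mul_right h hxy
  · simp only [if_neg h10, if_neg h20]
    have h : (f 2 + L) * M ≤ f 1 * M := by
      have h1 := hf1 2
      have h2 := hf2 1
      have h3 : (L + 1) * M = L * M + M := by ring
      have h4 : (f 2 + L) * M = f 2 * M + L * M := by ring
      omega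
    exact Nat.le_of_mul_le_mul_right h hxy
  · simp only [if_neg h10, if_neg h20]
    obtain ⟨d, hd⟩ := Nat.exists_eq_add_of_le (hfle 1)
    obtain ⟨r, hr⟩ := Nat.exists_eq_add_of_le (hfle 2)
    have e3 : nu 1 - f 1 = d := by omega
    have e4 : nu 2 - f 2 = r := by omega
    rw [e3, e4]
    have h : (r + L) * M ≤ d * M := by
      have h1 := hf1 1
      have h2 := hf2 2
      have h3 : nu 1 * M = f 1 * M + d * M := by rw [hd]; ring
      have h4 : nu 2 * M = f 2 * M + r * M := by rw [hr]; ring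
      have h5 : (L + 1) * M = L * M + M := by ring
      have h6 : (r + L) * M = r * M + L * M := by ring
      omega
    exact Nat.le_of_mul_le_mul_right h hxy
  · intro i j hi hij
    have hj : j ≠ 0 := hge j (hi.trans hij)
    simp only [if_neg (hge i hi), if_neg hj]
    exact Nat.div_le_div_right (Nat.mul_le_mul_right _ (hanti i j hi hij))
  · intro i j hi hij
    have hj : j ≠ 0 := hge j (hi.trans hij)
    simp only [if_neg (hge i hi), if_neg hj]
    obtain ⟨d, hd⟩ := Nat.exists_eq_add_of_le (hanti i j hi hij)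
    have h1 : f i ≤ f j + d := by
      have h2 : nu i * x ≤ nu j * x + d * M := by
        have : d * x ≤ d * M := Nat.mul_le_mul_left _ (by omega)
        rw [hd, Nat.add_mul]
        omega
      calc f i = nu i * x / M := rfl
        _ ≤ (nu j * x + d * M) / M := Nat.div_le_div_right h2
        _ = nu j * x / M + d := Nat.add_mul_div_right _ _ hxy
        _ = f j + d := rfl
    have h3 := hfle i
    have h4 := hfle j
    omega

end Vale.Agent.P181.FR
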