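import Vale.Agent.P181.R2.H207.Final
import Vale.Agent.P181.R2.H182.PtMul
import Vale.Agent.P181.R2.H182.Split

set_option autoImplicit false

open scoped TensorProduct

namespace Vale.Agent.P181.FR

open Vale.Agent.P181 Vale.Agent.P181.H280 Vale.Agent.P181.H54 MvPolynomial

/-- A large multiplicity in `Sym^B(Sym^c)` with `c = (N + 1) w ^ p` small. -/
theorem big_mult2 {n a b p w N : ℕ} (hp : 2 ≤ p) (hN : N = (2 * (n + 3) + 1) * (2 * p - 1))
    (h1 : (N + 1) * w ^ p ≤ a) (h2 : a ≤ w ^ (2 * p - 1)) (hb : b + 1 ≤ a ^ 2) :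
    ∃ lam' : Fin (n + 3) → ℕ,
      (b + 1) ^ ((n + 3) * a) ≤
        plethMult (N * w ^ (2 * p - 1)) ((N + 1) * w ^ p) (n + 3) lam' ∧
      ∑ i, lam' i = N * w ^ (2 * p - 1) * ((N + 1) * w ^ p) := by
  obtain ⟨q, rfl⟩ : ∃ q, p = q + 1 := ⟨p - 1, by omega⟩
  have e1 : w ^ q * (N * w ^ (q + 1)) = N * w ^ (2 * (q + 1) - 1) := by
    have : 2 * (q + 1) - 1 = q + (q + 1) := by omega
    rw [this, pow_add]
    ring
  have e2 : N * w ^ (q + 1) + w ^ q * w = (N + 1) * w ^ (q + 1) := by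
    rw [pow_succ]
    ring
  have hnum := numer (m := n + 3) (p := q + 1) (w := w) (a := a) (b := b) (N := N) (by omega) hp
    hN h1 h2 hb
  have hdim := Eb_dim (a := (N + 1) * w ^ (q + 1)) (n := n) (r := w ^ q)
    (h := N * w ^ (q + 1)) (s := w) (by rw [e2])
  rw [e2, e1] at hdim
  set c := (N + 1) * w ^ (q + 1) with hc
  set B := N * w ^ (2 * (q + 1) - 1) with hB
  set k0 := B * (c - c) with hk0
  obtain ⟨lam', hr⟩ := rich (b := B) (a := c) (m := n + 3) (Eb B c (n + 2) k0)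
    (Eb_stable (b := B) (a := c) (n := n + 2) (k0 := k0))
  set F := Module.finrank ℂ ↥(Eb B c (n + 2) k0 ⊓ hwSpace lam' (plethAct B c (n + 2 + 1))) with hF
  set P := (B * c + 1) ^ ((n + 3) * (n + 3) + (n + 3)) with hP
  have hPpos : 0 < P := by positivity
  have hPle : P ≤ (B * a + 1) ^ ((n + 3) * (n + 3) + (n + 3)) :=
    Nat.pow_le_pow_left (Nat.add_le_add_right (Nat.mul_le_mul_left _ h1) 1) _
  have h3 : (b + 1) ^ ((n + 3) * a) * P ≤ F * P := by
    refine ((Nat.mul_le_mul_left _ hPle).trans hnum).trans (hdim.trans (hr.trans (le_of_eq ?_)))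
    rw [Nat.mul_comm]
  have h4 : (b + 1) ^ ((n + 3) * a) ≤ F := Nat.le_of_mul_le_mul_right h3 hPpos
  have hFpos : 0 < F := lt_of_lt_of_le (by positivity) h4
  have hne : Eb B c (n + 2) k0 ⊓ hwSpace lam' (plethAct B c (n + 2 + 1)) ≠ ⊥ := by
    intro h
    rw [hF, h, finrank_bot] at hFpos
    exact lt_irrefl _ hFpos
  obtain ⟨x, hx, hx0⟩ := Submodule.exists_mem_ne_zero_of_ne_bot hne
  refine ⟨lam', h4.trans ?_, hw_sum hx.2 hx0⟩
  have _inst : Module.Finite ℂ (Pleth B c (n + 2 + 1)) :=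
    inferInstanceAs (Module.Finite ℂ (Sym[ℂ]^B (Sym[ℂ]^c (Fin (n + 2 + 1) → ℂ))))
  exact finrank_le_of_inj (LinearMap.id : Pleth B c (n + 2 + 1) →ₗ[ℂ] Pleth B c (n + 2 + 1)) _ _
    (fun x hx => hx.2) (fun x _ h => h)

/-- The numbers of the splitting. -/
lemma nums {n a b W N c E g1 g2 : ℕ}
    (hN : 6 * (n + 3) + 3 ≤ N) (hW : a ≤ W) (hc : 2 * c ≤ a)
    (hb : b + 1 ≤ a ^ 2) (h3 : 2 * (N * W) ≤ b)
    (hE : 2 * ((n + 3) ^ 3 + 4) ≤ E) (hEW : W * 2 * ((n + 3) ^ 3 + 4) ≤ N * E)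
    (hg1 : (n + 5) * b ≤ g1) (hg2 : E ≤ g2) (haW : a ^ 2 ≤ W * W) :
    (N * W + 4 * (n + 3) ^ 2 * (a - c)) * ((a - c) * (N * W) + a * (b - N * W)) ≤
        g1 * ((a - c) * (N * W)) ∧
    ((b - N * W + 4 * (n + 3) ^ 2 * a) + (n + 4)) * ((a - c) * (N * W) + a * (b - N * W)) ≤
        g1 * (a * (b - N * W)) ∧
    (((n + 3) ^ 3 + 3) + 1) * ((a - c) * (N * W) + a * (b - N * W)) ≤
        g2 * ((a - c) * (N * W)) ∧
    (((n + 3) ^ 3 + 3) + 1) * ((a - c) * (N * W) + a * (b - N * W)) ≤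
        g2 * (a * (b - N * W)) := by
  obtain ⟨e, he⟩ := Nat.exists_eq_add_of_le (show c ≤ a by omega)
  have he' : a - c = e := by omega
  obtain ⟨b', hb'⟩ := Nat.exists_eq_add_of_le (show N * W ≤ b by omega)
  have hb'' : b - N * W = b' := by omega
  rw [he', hb'']
  set B := N * W with hB
  have hM : e * B + a * b' ≤ a * b := by
    rw [hb', Nat.mul_add]
    exact Nat.add_le_add_right (Nat.mul_le_mul_right _ (by omega)) _
  have ha2 : a ≤ 2 * e := by omega
  have hBa : (6 * (n + 3) + 3) * a ≤ B := Nat.mul_le_mul hN hW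
  have hbb : b ≤ 2 * b' := by omega
  have hBb' : B ≤ b' := by omega
  refine ⟨?_, ?_, ?_, ?_⟩
  · -- (B + 4 m² e) M ≤ g1 e B
    have h1 : (B + 4 * (n + 3) ^ 2 * e) * a ≤ (n + 5) * (e * B) := by
      have h5 : B * a ≤ 2 * (e * B) := by
        calc B * a ≤ B * (2 * e) := Nat.mul_le_mul_left _ ha2
          _ = 2 * (e * B) := by ring
      have h6 : 4 * (n + 3) ^ 2 * e * a ≤ (n + 3) * (e * B) := by
        calc 4 * (n + 3) ^ 2 * e * a = (n + 3) * (e * (4 * (n + 3) * a)) := by ring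
          _ ≤ (n + 3) * (e * B) := by
              apply Nat.mul_le_mul_left
              apply Nat.mul_le_mul_left
              refine le_trans (Nat.mul_le_mul_right _ ?_) hBa
              omega
      calc (B + 4 * (n + 3) ^ 2 * e) * a = B * a + 4 * (n + 3) ^ 2 * e * a := by ring
        _ ≤ 2 * (e * B) + (n + 3) * (e * B) := Nat.add_le_add h5 h6
        _ = (n + 5) * (e * B) := by ring
    calc (B + 4 * (n + 3) ^ 2 * e) * (e * B + a * b')
        ≤ (B + 4 * (n + 3) ^ 2 * e) * (a * b) := Nat.mul_le_mul_left _ hM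
      _ = ((B + 4 * (n + 3) ^ 2 * e) * a) * b := by ring
      _ ≤ ((n + 5) * (e * B)) * b := Nat.mul_le_mul_right _ h1
      _ = ((n + 5) * b) * (e * B) := by ring
      _ ≤ g1 * (e * B) := Nat.mul_le_mul_right _ hg1
  · have h1 : (b' + 4 * (n + 3) ^ 2 * a) + (n + 4) ≤ (n + 5) * b' := by
      have h5 : 4 * (n + 3) ^ 2 * a + (n + 4) ≤ (n + 4) * b' := by
        by_cases ha0 : a = 0
        · rw [ha0] at hb
          simp at hb
        · have ha1 : 1 ≤ a := by omega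
          have h6 : 4 * (n + 3) ^ 2 + (n + 4) ≤ (n + 4) * (6 * (n + 3) + 3) := by
            have : (n + 4) * (6 * (n + 3) + 3) = 4 * (n + 3) ^ 2 + (n + 4) +
              (2 * n ^ 2 + 20 * n + 44) := by ring
            omega
          calc 4 * (n + 3) ^ 2 * a + (n + 4) ≤ 4 * (n + 3) ^ 2 * a + (n + 4) * a :=
                Nat.add_le_add_left (Nat.le_mul_of_pos_right _ ha1) _
            _ = (4 * (n + 3) ^ 2 + (n + 4)) * a := by ring
            _ ≤ ((n + 4) * (6 * (n + 3) + 3)) * a := Nat.mul_le_mul_right _ h6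
            _ = (n + 4) * ((6 * (n + 3) + 3) * a) := by ring
            _ ≤ (n + 4) * b' := Nat.mul_le_mul_left _ (hBa.trans hBb')
      calc (b' + 4 * (n + 3) ^ 2 * a) + (n + 4) = b' + (4 * (n + 3) ^ 2 * a + (n + 4)) := by ring
        _ ≤ b' + (n + 4) * b' := Nat.add_le_add_left h5 _
        _ = (n + 5) * b' := by ring
    calc ((b' + 4 * (n + 3) ^ 2 * a) + (n + 4)) * (e * B + a * b')
        ≤ ((n + 5) * b') * (a * b) := Nat.mul_le_mul h1 hM
      _ = ((n + 5) * b) * (a * b') := by ring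
      _ ≤ g1 * (a * b') := Nat.mul_le_mul_right _ hg1
  · have h1 : ((n + 3) ^ 3 + 4) * (a * b) ≤ E * (e * B) := by
      have h5 : b * (2 * ((n + 3) ^ 3 + 4)) ≤ E * B := by
        have h7 : b ≤ W * W := by omega
        calc b * (2 * ((n + 3) ^ 3 + 4)) ≤ (W * W) * (2 * ((n + 3) ^ 3 + 4)) :=
              Nat.mul_le_mul_right _ h7
          _ = (W * 2 * ((n + 3) ^ 3 + 4)) * W := by ring
          _ ≤ (N * E) * W := Nat.mul_le_mul_right _ hEW
          _ = E * B := by rw [hB]; ring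
      calc ((n + 3) ^ 3 + 4) * (a * b) ≤ ((n + 3) ^ 3 + 4) * ((2 * e) * b) :=
            Nat.mul_le_mul_left _ (Nat.mul_le_mul_right _ ha2)
        _ = e * (b * (2 * ((n + 3) ^ 3 + 4))) := by ring
        _ ≤ e * (E * B) := Nat.mul_le_mul_left _ h5
        _ = E * (e * B) := by ring
    calc (((n + 3) ^ 3 + 3) + 1) * (e * B + a * b')
        ≤ (((n + 3) ^ 3 + 3) + 1) * (a * b) := Nat.mul_le_mul_left _ hM
      _ = ((n + 3) ^ 3 + 4) * (a * b) := by ring
      _ ≤ E * (e * B) := h1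
      _ ≤ g2 * (e * B) := Nat.mul_le_mul_right _ hg2
  · calc (((n + 3) ^ 3 + 3) + 1) * (e * B + a * b')
        ≤ (((n + 3) ^ 3 + 3) + 1) * (a * b) := Nat.mul_le_mul_left _ hM
      _ = ((n + 3) ^ 3 + 4) * a * b := by ring
      _ ≤ ((n + 3) ^ 3 + 4) * a * (2 * b') := Nat.mul_le_mul_left _ hbb
      _ = (2 * ((n + 3) ^ 3 + 4)) * (a * b') := by ring
      _ ≤ E * (a * b') := Nat.mul_le_mul_right _ hE
      _ ≤ g2 * (a * b') := Nat.mul_le_mul_right _ hg2

/-- Foulkes' inequality in the interior of the set of partitions with `n + 3` rows, second form. -/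
theorem final2 {n a b p w N : ℕ} (hp : 2 ≤ p) (hN : N = (2 * (n + 3) + 1) * (2 * p - 1))
    (h1 : 2 * ((N + 1) * w ^ p) ≤ a) (h2 : a ≤ w ^ (2 * p - 1)) (h3 : 2 * (N * w ^ (2 * p - 1)) ≤ b)
    (lam : Fin (n + 3) → ℕ) (hsum : ∑ i, lam i = a * b)
    (hl0 : lam 1 + (n + 5) * b + (N + 1) ^ 2 * w ^ (3 * p - 1) ≤ lam 0)
    (hl : ∀ i : Fin (n + 1), lam i.succ.succ + (N + 1) ^ 2 * w ^ (3 * p - 1) ≤ lam i.succ.castSucc)
    (hlast : (N + 1) ^ 2 * w ^ (3 * p - 1) ≤ lam (Fin.last _)) :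
    plethMult a b (n + 3) lam ≤ plethMult b a (n + 3) lam := by
  by_cases hq : (a - 1) ^ 2 ≤ b
  · exact foulkes_quadratic hq lam
  rw [not_le] at hq
  have ha : 2 ≤ a := by
    by_contra h
    have h0 : a - 1 = 0 := by omega
    rw [h0] at hq
    simp at hq
  have hb : b + 1 ≤ a ^ 2 := hq.trans_le (Nat.pow_le_pow_left (Nat.sub_le _ _) 2)
  have h1' : (N + 1) * w ^ p ≤ a := by omega
  obtain ⟨hw, hwp, hN4⟩ := w_bound hp hN ha h1' h2
  obtain ⟨lam', hm, hl's⟩ := big_mult2 hp hN h1' h2 hb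
  have h0 := plethMult_le_pow a b (n + 3) lam
  set W := w ^ (2 * p - 1) with hW
  set c := (N + 1) * w ^ p with hc
  set D := (N + 1) ^ 2 * w ^ (3 * p - 1) with hD
  set B := N * W with hB
  have hBc : B * c = N * (N + 1) * w ^ (3 * p - 1) := by
    have : 3 * p - 1 = (2 * p - 1) + p := by omega
    rw [hB, hc, hW, this, pow_add]
    ring
  set E := (N + 1) * w ^ (3 * p - 1) with hE
  have hBcD : B * c + E = D := by
    rw [hBc, hD, hE]
    ring
  have hsmall : ∀ i : Fin (n + 3), lam' i ≤ B * c := by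
    intro i
    rw [← hl's]
    exact Finset.single_le_sum (fun _ _ => Nat.zero_le _) (Finset.mem_univ _)
  -- steps of `lam`
  have hst : ∀ (k : ℕ) (hk : k + 2 < n + 3),
      lam ⟨k + 2, hk⟩ + D ≤ lam ⟨k + 1, by omega⟩ := fun k hk => hl ⟨k, by omega⟩
  have hanti := anti_of_step lam (fun k hk => (Nat.le_add_right _ _).trans (hst k hk))
  have h10 : (1 : Fin (n + 3)) ≠ 0 := by
    intro h; exact absurd (congrArg Fin.val h) (by simp)
  have hD1 : ∀ i : Fin (n + 3), 1 ≤ i → D ≤ lam i := by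
    intro i hi
    exact hlast.trans (hanti i _ hi (Fin.le_last i))
  have hDle : ∀ i : Fin (n + 3), D ≤ lam i := by
    intro i
    by_cases hi : i = 0
    · rw [hi]
      have := hD1 1 le_rfl
      omega
    · apply hD1
      rw [Fin.le_def, Fin.val_one]
      have : (i : ℕ) ≠ 0 := fun h => hi (Fin.ext h)
      omega
  have hle : ∀ i, lam' i ≤ lam i := fun i =>
    (hsmall i).trans ((by omega : B * c ≤ D).trans (hDle i))
  -- the difference
  let nu : Fin (n + 3) → ℕ := fun i => lam i - lam' i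
  have hnu : ∀ i, nu i + lam' i = lam i := fun i => Nat.sub_add_cancel (hle i)
  have hBb : B ≤ b := by omega
  have hca : c ≤ a := h1'
  obtain ⟨e, he⟩ := Nat.exists_eq_add_of_le hca
  have he' : a - c = e := by omega
  have hsnu : ∑ i, nu i = (a - c) * B + a * (b - B) := by
    have h5 : ∑ i, nu i + ∑ i, lam' i = a * b := by
      rw [← Finset.sum_add_distrib, ← hsum]
      exact Finset.sum_congr rfl (fun i _ => hnu i)
    obtain ⟨b', hb'⟩ := Nat.exists_eq_add_of_le hBb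
    have hb'' : b - B = b' := by omega
    have h6 : a * b = e * B + a * b' + B * c := by
      rw [hb']
      have : (c + e) * (B + b') = e * B + (c + e) * b' + B * c := by ring
      rw [← he] at this
      exact this
    rw [he', hb'']
    rw [hl's, h6] at h5
    exact Nat.add_right_cancel h5
  have hst' : ∀ (k : ℕ) (hk : k + 2 < n + 3),
      nu ⟨k + 2, hk⟩ + E ≤ nu ⟨k + 1, by omega⟩ := by
    intro k hk
    have e1 := hst k hk
    have e4 : nu ⟨k + 2, hk⟩ ≤ lam ⟨k + 2, hk⟩ := Nat.sub_le _ _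
    have e5 := hnu ⟨k + 1, by omega⟩
    have e6 := hsmall ⟨k + 1, by omega⟩
    omega
  have hg1 : nu 1 + (n + 5) * b ≤ nu 0 := by
    have e1 : nu 1 ≤ lam 1 := Nat.sub_le _ _
    have e2 := hnu 0
    have e3 := hsmall 0
    omega
  have hg2 : nu 2 + E ≤ nu 1 := by
    have e1 := hst' 0 (by omega)
    have e2 : (⟨0 + 2, by omega⟩ : Fin (n + 3)) = 2 := Fin.ext Fin.val_two.symm
    have e3 : (⟨0 + 1, by omega⟩ : Fin (n + 3)) = 1 := Fin.ext (by simp)
    rw [e2, e3] at e1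
    exact e1
  have hanti' := anti_of_step nu (fun k hk => (Nat.le_add_right _ _).trans (hst' k hk))
  have hN3 : 6 * (n + 3) + 3 ≤ N := by omega
  have hw3 : (6 * (n + 3) + 4) ^ 3 ≤ w ^ (3 * p - 1) := by
    have e1 : 3 * p - 1 = (p - 1) * 3 + 2 := by omega
    rw [e1, pow_add, pow_mul]
    refine le_trans (Nat.pow_le_pow_left (hN4.trans hwp) 3) ?_
    exact Nat.le_mul_of_pos_right _ (pow_pos hw 2)
  have hcube : 2 * ((n + 3) ^ 3 + 4) ≤ (6 * (n + 3) + 4) ^ 3 := by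
    have : (6 * (n + 3) + 4) ^ 3 = 2 * ((n + 3) ^ 3 + 4) +
      (214 * (n + 3) ^ 3 + 432 * (n + 3) ^ 2 + 288 * (n + 3) + 56) := by ring
    omega
  have hE1 : 2 * ((n + 3) ^ 3 + 4) ≤ E :=
    (hcube.trans hw3).trans (Nat.le_mul_of_pos_left _ (by omega))
  have hE2 : W * 2 * ((n + 3) ^ 3 + 4) ≤ N * E := by
    -- E = (N+1) w^(3p-1) = (N+1) w^p W, and N (N+1) w^p ≥ (6m+4)^3
    have e1 : E = (N + 1) * w ^ p * W := by
      have : 3 * p - 1 = p + (2 * p - 1) := by omega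
      rw [hE, this, pow_add, hW]
      ring
    have e2 : 2 * ((n + 3) ^ 3 + 4) ≤ N * ((N + 1) * w ^ p) := by
      have e3 : N + 1 ≤ w ^ p := by
        refine hwp.trans (Nat.pow_le_pow_right hw (by omega))
      have e4 : (6 * (n + 3) + 3) * ((6 * (n + 3) + 4) * (6 * (n + 3) + 4)) ≤
          N * ((N + 1) * w ^ p) :=
        Nat.mul_le_mul hN3 (Nat.mul_le_mul hN4 (hN4.trans e3))
      refine le_trans ?_ e4
      have : (6 * (n + 3) + 3) * ((6 * (n + 3) + 4) * (6 * (n + 3) + 4)) =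
        2 * ((n + 3) ^ 3 + 4) + (214 * (n + 3) ^ 3 + 396 * (n + 3) ^ 2 + 240 * (n + 3) + 40) := by
        ring
      omega
    calc W * 2 * ((n + 3) ^ 3 + 4) = (2 * ((n + 3) ^ 3 + 4)) * W := by ring
      _ ≤ (N * ((N + 1) * w ^ p)) * W := Nat.mul_le_mul_right _ e2
      _ = N * E := by rw [e1]; ring
  have haW : a ^ 2 ≤ W * W := by
    rw [pow_two]
    exact Nat.mul_le_mul h2 h2
  obtain ⟨n1, n2, n3, n4⟩ := nums (n := n) (a := a) (b := b) (W := W) (N := N) (c := c)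
    (E := E) (g1 := nu 0 - nu 1) (g2 := nu 1 - nu 2) hN3 h2 h1 hb h3 hE1 hE2
    (by omega) (by omega) haW
  have hxy : 0 < (a - c) * B + a * (b - B) := by
    have h5 : 0 < a * (b - B) := by
      apply Nat.mul_pos (by omega)
      have : 0 < B := by
        rw [hB]
        exact Nat.mul_pos (by omega) (lt_of_lt_of_le (by omega) h2)
      omega
    omega
  obtain ⟨mu0, mu1, hmu, s0, s1, k0, k1, l0, l1, t0, t1⟩ := split_part nu ((a - c) * B)
    (a * (b - B)) (B + 4 * (n + 3) ^ 2 * (a - c)) (b - B + 4 * (n + 3) ^ 2 * a)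
    ((n + 3) ^ 3 + 3) hxy hsnu hanti' (by omega) (by omega) n1 n2 n3 n4
  have hpos0 : Pos B (a - c) (n + 3) mu0 := by
    refine pos_of mu0 s0 ?_ (by omega) (by omega) t0
    have : N + 1 ≤ (N + 1) * w ^ p := Nat.le_mul_of_pos_right _ (pow_pos hw p)
    omega
  have hpos1 : Pos (b - B) a (n + 3) mu1 := by
    refine pos_of mu1 s1 ?_ (by omega) (by omega) t1
    have : N + 1 ≤ (N + 1) * w ^ p := Nat.le_mul_of_pos_right _ (pow_pos hw p)
    omega
  have h5 : plethMult B c (n + 3) lam' ≤ plethMult B (a - c + c) (n + 3) (mu0 + lam') :=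
    plethMult_pt hpos0
  rw [Nat.sub_add_cancel hca] at h5
  have h6 : plethMult B a (n + 3) (mu0 + lam') ≤
      plethMult (B + (b - B)) a (n + 3) (mu0 + lam' + mu1) := plethMult_mul hpos1
  rw [Nat.add_sub_cancel' hBb] at h6
  have h7 : mu0 + lam' + mu1 = lam := by
    funext i
    have h8 := congrFun hmu i
    have h9 := hnu i
    simp only [Pi.add_apply] at h8 ⊢
    omega
  rw [h7] at h6
  exact h0.trans (hm.trans (h5.trans h6))

end Vale.Agent.P181.FR
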