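import Vale.Agent.P181.R2.H959.FDefs
import Mathlib.Algebra.Group.ForwardDiff

set_option autoImplicit false

open scoped TensorProduct

namespace Vale.Agent.P181.FR

open Vale.Agent.P181 Vale.Agent.P181.H280 Vale.Agent.P181.H54 MvPolynomial

namespace R7

/-- Expansion of a multilinear map along a line. -/
lemma multi_line {κ : Type*} [Fintype κ] [DecidableEq κ] {M N : Type*} [AddCommMonoid M]
    [Module ℂ M] [AddCommMonoid N] [Module ℂ N] (F : MultilinearMap ℂ (fun _ : κ => M) N)
    (x y : κ → M) :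
    ∃ z : ℕ → N, ∀ t : ℂ, F (fun k => x k + t • y k) =
      ∑ n ∈ Finset.range (Fintype.card κ + 1), t ^ n • z n := by
  refine ⟨fun n => ∑ s ∈ Finset.powersetCard n Finset.univ, F (s.piecewise y x), fun t => ?_⟩
  have h : (fun k => x k + t • y k) = (fun k => t • y k) + x := by
    funext k
    simp only [Pi.add_apply]
    exact add_comm _ _
  have h2 : ∀ s : Finset κ, F (s.piecewise (fun k => t • y k) x) =
      t ^ s.card • F (s.piecewise y x) := by
    intro s
    have h3 : s.piecewise (fun k => t • y k) x =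
        s.piecewise (fun k => t • (s.piecewise y x) k) (s.piecewise y x) := by
      funext k
      by_cases hk : k ∈ s
      · simp [Finset.piecewise, hk]
      · simp [Finset.piecewise, hk]
    rw [h3, MultilinearMap.map_piecewise_smul, Finset.prod_const]
  rw [h, MultilinearMap.map_add_univ, ← Finset.powerset_univ, Finset.sum_powerset,
    Finset.card_univ]
  apply Finset.sum_congr rfl
  intro n _
  rw [Finset.smul_sum]
  apply Finset.sum_congr rfl
  intro s hs
  rw [h2, (Finset.mem_powersetCard.1 hs).2]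

/-- A vector polynomial with infinitely many zeros vanishes. -/
lemma vec_poly {M : Type*} [AddCommGroup M] [Module ℂ M] (D : ℕ) (c : ℕ → M) (s : ℕ → ℂ)
    (hs : Function.Injective s) (h : ∀ j, ∑ n ∈ Finset.range D, (s j) ^ n • c n = 0) :
    ∀ n < D, c n = 0 := by
  intro n hn
  rw [← Module.forall_dual_apply_eq_zero_iff ℂ]
  intro φ
  let p : Polynomial ℂ := ∑ i ∈ Finset.range D, Polynomial.C (φ (c i)) * Polynomial.X ^ i
  have hp : p = 0 := by
    apply Polynomial.eq_zero_of_infinite_isRoot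
    apply Set.infinite_of_injective_forall_mem hs
    intro j
    have h1 := congrArg φ (h j)
    rw [map_sum, map_zero] at h1
    simp only [map_smul, smul_eq_mul] at h1
    simp only [p, Set.mem_ofPred_eq, Polynomial.IsRoot.def, Polynomial.eval_finsetSum,
      Polynomial.eval_mul, Polynomial.eval_C, Polynomial.eval_pow, Polynomial.eval_X]
    rw [← h1]
    exact Finset.sum_congr rfl (fun i _ => mul_comm _ _)
  have := congrArg (fun q => q.coeff n) hp
  simp only [p, Polynomial.finsetSum_coeff, Polynomial.coeff_C_mul, Polynomial.coeff_X_pow,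
    Polynomial.coeff_zero, mul_ite, mul_one, mul_zero] at this
  rw [Finset.sum_ite_eq] at this
  simpa only [Finset.mem_range, hn, ↓reduceIte] using this

/-- Two vector polynomials that agree at infinitely many points have equal coefficients. -/
lemma vec_ext {M : Type*} [AddCommGroup M] [Module ℂ M] (D : ℕ) (z w : ℕ → M) (s : ℕ → ℂ)
    (hs : Function.Injective s) (h : ∀ j, ∑ n ∈ Finset.range D, (s j) ^ n • z n =
      ∑ n ∈ Finset.range D, (s j) ^ n • w n) : ∀ n < D, z n = w n := by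
  intro n hn
  have h0 := vec_poly D (fun n => z n - w n) s hs (fun j => by
    simp only [smul_sub]
    rw [Finset.sum_sub_distrib, h j, sub_self])
  exact sub_eq_zero.1 (h0 n hn)

/-- A vector polynomial that takes a value infinitely often is constant. -/
lemma vec_const {M : Type*} [AddCommGroup M] [Module ℂ M] (D : ℕ) (z : ℕ → M) (x : M) (s : ℕ → ℂ)
    (hs : Function.Injective s) (h : ∀ j, ∑ n ∈ Finset.range (D + 1), (s j) ^ n • z n = x)
    (t : ℂ) : ∑ n ∈ Finset.range (D + 1), t ^ n • z n = x := by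
  have hw : ∀ u : ℂ, ∑ n ∈ Finset.range (D + 1), u ^ n • (if n = 0 then x else 0) = x := by
    intro u
    rw [Finset.sum_eq_single 0]
    · simp
    · intro n _ hn
      simp [hn]
    · intro h
      exact absurd (Finset.mem_range.2 (Nat.succ_pos _)) h
  have h0 := vec_ext (D + 1) z (fun n => if n = 0 then x else 0) s hs (fun j => by
    rw [h j, hw])
  have h1 : ∑ n ∈ Finset.range (D + 1), t ^ n • z n =
      ∑ n ∈ Finset.range (D + 1), t ^ n • (if n = 0 then x else 0) := by
    apply Finset.sum_congr rfl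
    intro n hn
    rw [h0 n (Finset.mem_range.1 hn)]
  rw [h1, hw]

section

variable {b a m : ℕ}

/-- The action, on the underlying symmetric power. -/
noncomputable def ac (b a m : ℕ) (g : Matrix (Fin m) (Fin m) ℂ) :
    (Sym[ℂ]^b (Sym[ℂ]^a (Fin m → ℂ))) →ₗ[ℂ] (Sym[ℂ]^b (Sym[ℂ]^a (Fin m → ℂ))) :=
  symMap b (symMap a (Matrix.toLin' g))

lemma ac_pure (g : Matrix (Fin m) (Fin m) ℂ) (v : Fin b → Fin a → (Fin m → ℂ)) :
    ac b a m g (SymmetricPower.tprod ℂ (fun j => SymmetricPower.tprod ℂ (v j))) =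
      colMul a b (Fin m → ℂ) (fun p => Matrix.toLin' g (v p.2 p.1)) := by
  rw [ac, symMap_tprod]
  change _ = SymmetricPower.tprod ℂ (fun j => SymmetricPower.tprod ℂ
    (fun i => Matrix.toLin' g (v j i)))
  congr 1
  funext j
  rw [symMap_tprod]

lemma ac_mul (g h : Matrix (Fin m) (Fin m) ℂ) (x : Sym[ℂ]^b (Sym[ℂ]^a (Fin m → ℂ))) :
    ac b a m g (ac b a m h x) = ac b a m (g * h) x := by
  rw [ac, ac, ac, symMap_comp_apply]
  congr 1
  congr 1
  apply LinearMap.ext
  intro y
  rw [LinearMap.comp_apply, symMap_comp_apply, Matrix.toLin'_mul]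

lemma ac_one (x : Sym[ℂ]^b (Sym[ℂ]^a (Fin m → ℂ))) : ac b a m 1 x = x := by
  have h : symMap a (Matrix.toLin' (1 : Matrix (Fin m) (Fin m) ℂ)) = LinearMap.id := by
    apply LinearMap.ext
    intro y
    rw [Matrix.toLin'_one, symMap_id_apply, LinearMap.id_apply]
  rw [ac, h, symMap_id_apply]

lemma ac_poly (A N : Matrix (Fin m) (Fin m) ℂ) (x : Sym[ℂ]^b (Sym[ℂ]^a (Fin m → ℂ))) :
    ∃ z : ℕ → Sym[ℂ]^b (Sym[ℂ]^a (Fin m → ℂ)), ∀ t : ℂ, ac b a m (A + t • N) x =
      ∑ n ∈ Finset.range (b * a + 1), t ^ n • z n := by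
  have hx : x ∈ Submodule.span ℂ (Set.range (fun v : Fin b → Fin a → (Fin m → ℂ) =>
      SymmetricPower.tprod ℂ (fun i => SymmetricPower.tprod ℂ (v i)))) := by
    rw [span_pure]
    trivial
  induction hx using Submodule.span_induction with
  | mem x h =>
    obtain ⟨v, rfl⟩ := h
    obtain ⟨z, hz⟩ := multi_line (colMul a b (Fin m → ℂ))
      (fun p => Matrix.toLin' A (v p.2 p.1)) (fun p => Matrix.toLin' N (v p.2 p.1))
    refine ⟨z, fun t => ?_⟩
    rw [ac_pure]
    have h1 : Fintype.card (Fin a × Fin b) = b * a := by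
      rw [Fintype.card_prod, Fintype.card_fin, Fintype.card_fin, mul_comm]
    rw [h1] at hz
    rw [← hz t]
    congr 1
    funext p
    rw [map_add, map_smul]
    rfl
  | zero => exact ⟨0, fun t => by simp⟩
  | add x y _ _ hx hy =>
    obtain ⟨z, hz⟩ := hx
    obtain ⟨w, hw⟩ := hy
    refine ⟨z + w, fun t => ?_⟩
    rw [map_add, hz t, hw t, ← Finset.sum_add_distrib]
    exact Finset.sum_congr rfl (fun n _ => (smul_add _ _ _).symm)
  | smul c x _ hx =>
    obtain ⟨z, hz⟩ := hx
    refine ⟨c • z, fun t => ?_⟩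
    rw [map_smul, hz t, Finset.smul_sum]
    exact Finset.sum_congr rfl (fun n _ => smul_comm _ _ _)

lemma ac_trans_poly (k l : Fin m) (x : Sym[ℂ]^b (Sym[ℂ]^a (Fin m → ℂ))) :
    ∃ z : ℕ → Sym[ℂ]^b (Sym[ℂ]^a (Fin m → ℂ)), ∀ t : ℂ,
      ac b a m (Matrix.transvection k l t) x =
      ∑ n ∈ Finset.range (b * a + 1), t ^ n • z n := by
  obtain ⟨z, hz⟩ := ac_poly 1 (Matrix.single k l (1 : ℂ)) x
  refine ⟨z, fun t => ?_⟩
  rw [← hz t, Matrix.smul_single, smul_eq_mul, mul_one]
  rfl

lemma ac_trans_pow {k l : Fin m} (hkl : k ≠ l) (x : Sym[ℂ]^b (Sym[ℂ]^a (Fin m → ℂ))) (j : ℕ) :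
    ((ac b a m (Matrix.transvection k l 1)) ^ j : Module.End ℂ _) x =
      ac b a m (Matrix.transvection k l (j : ℂ)) x := by
  induction j with
  | zero => rw [pow_zero, Nat.cast_zero, Matrix.transvection_zero, ac_one, Module.End.one_apply]
  | succ j ih =>
    rw [pow_succ', Module.End.mul_apply, ih, ac_mul,
      Matrix.transvection_mul_transvection_same _ _ hkl]
    congr 3
    push_cast
    ring

lemma sum_choose_pow {D n : ℕ} (hn : n < D) :
    ∑ k ∈ Finset.range (D + 1), ((-1 : ℂ) ^ (D - k) * (D.choose k : ℂ)) * (k : ℂ) ^ n = 0 := by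
  have h := fwdDiff_iter_pow_eq_zero_of_lt (R := ℂ) hn
  have h2 := congrFun h 0
  rw [fwdDiff_iter_eq_sum_shift] at h2
  simp only [zero_add, nsmul_eq_mul, mul_one, Pi.zero_apply, zsmul_eq_mul] at h2
  rw [← h2]
  apply Finset.sum_congr rfl
  intro k _
  push_cast
  ring

lemma ac_unip_nil {k l : Fin m} (hkl : k ≠ l) (x : Sym[ℂ]^b (Sym[ℂ]^a (Fin m → ℂ))) :
    Polynomial.aeval (ac b a m (Matrix.transvection k l 1))
      (∏ _k ∈ Finset.range (b * a + 1), (Polynomial.X - Polynomial.C (1 : ℂ))) x = 0 := by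
  rw [Finset.prod_const, Finset.card_range]
  obtain ⟨z, hz⟩ := ac_trans_poly k l x
  have hexp : (Polynomial.X - Polynomial.C (1 : ℂ)) ^ (b * a + 1) =
      ∑ i ∈ Finset.range (b * a + 1 + 1),
        Polynomial.C ((-1 : ℂ) ^ (b * a + 1 - i) * ((b * a + 1).choose i : ℂ)) *
          Polynomial.X ^ i := by
    rw [sub_eq_add_neg, add_pow]
    apply Finset.sum_congr rfl
    intro i _
    rw [Polynomial.C_mul, Polynomial.C_pow, Polynomial.C_neg, Polynomial.C_1]
    rw [Polynomial.C_eq_natCast]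
    ring
  rw [hexp, map_sum, LinearMap.sum_apply]
  have hterm : ∀ i, (Polynomial.aeval (ac b a m (Matrix.transvection k l 1)))
      (Polynomial.C ((-1 : ℂ) ^ (b * a + 1 - i) * ((b * a + 1).choose i : ℂ)) *
          Polynomial.X ^ i) x =
      ((-1 : ℂ) ^ (b * a + 1 - i) * ((b * a + 1).choose i : ℂ)) •
        ∑ n ∈ Finset.range (b * a + 1), (i : ℂ) ^ n • z n := by
    intro i
    rw [map_mul, map_pow, Polynomial.aeval_C, Polynomial.aeval_X, Module.End.mul_apply,
      ac_trans_pow hkl, hz, Module.algebraMap_end_apply]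
  rw [Finset.sum_congr rfl (fun i _ => hterm i)]
  simp only [Finset.smul_sum, smul_smul]
  rw [Finset.sum_comm]
  apply Finset.sum_eq_zero
  intro n hn
  rw [← Finset.sum_smul, sum_choose_pow (Finset.mem_range.1 hn), zero_smul]

lemma ac_unip_fix {k l : Fin m} (hkl : k ≠ l) (x : Sym[ℂ]^b (Sym[ℂ]^a (Fin m → ℂ)))
    (hx : ac b a m (Matrix.transvection k l 1) x = x) (t : ℂ) :
    ac b a m (Matrix.transvection k l t) x = x := by
  obtain ⟨z, hz⟩ := ac_trans_poly k l x
  have hfix : ∀ j : ℕ, ((ac b a m (Matrix.transvection k l 1)) ^ j : Module.End ℂ _) x = x := by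
    intro j
    induction j with
    | zero => rw [pow_zero, Module.End.one_apply]
    | succ j ih => rw [pow_succ', Module.End.mul_apply, ih, hx]
  have h0 := vec_const (b * a) z x (fun j : ℕ => (j : ℂ)) Nat.cast_injective (fun j =>
    (hz (j : ℂ)).symm.trans (by rw [← ac_trans_pow hkl, hfix])) t
  exact (hz t).trans h0

lemma dg_eq (i : Fin m) (t : ℂ) : dg i t = dg i 0 + t • Matrix.diagonal (Pi.single i (1 : ℂ)) := by
  rw [dg, dg, ← Matrix.diagonal_smul, Matrix.diagonal_add]
  congr 1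
  funext k
  by_cases hk : k = i
  · subst hk
    simp
  · simp [Function.update_of_ne hk, Pi.single_eq_of_ne hk]

lemma dg_mul (i : Fin m) (s t : ℂ) : dg i s * dg i t = dg i (s * t) := by
  rw [dg, dg, dg, Matrix.diagonal_mul_diagonal]
  congr 1
  funext k
  by_cases hk : k = i
  · subst hk
    simp
  · simp [Function.update_of_ne hk]

lemma dg_one (i : Fin m) : dg i (1 : ℂ) = 1 := by
  rw [dg, ← Matrix.diagonal_one]
  congr 1
  funext k
  by_cases hk : k = i
  · subst hk
    simp
  · simp [Function.update_of_ne hk]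

lemma ac_dg_poly (i : Fin m) (x : Sym[ℂ]^b (Sym[ℂ]^a (Fin m → ℂ))) :
    ∃ z : ℕ → Sym[ℂ]^b (Sym[ℂ]^a (Fin m → ℂ)), (∀ t : ℂ,
      ac b a m (dg i t) x = ∑ n ∈ Finset.range (b * a + 1), t ^ n • z n) ∧
      ∀ n < b * a + 1, ∀ s : ℂ, ac b a m (dg i s) (z n) = s ^ n • z n := by
  obtain ⟨z, hz⟩ := ac_poly (dg i 0) (Matrix.diagonal (Pi.single i (1 : ℂ))) x
  have hz' : ∀ t : ℂ, ac b a m (dg i t) x = ∑ n ∈ Finset.range (b * a + 1), t ^ n • z n := by
    intro t
    rw [← hz t, ← dg_eq]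
  refine ⟨z, hz', fun n hn s => ?_⟩
  refine vec_ext (b * a + 1) (fun n => ac b a m (dg i s) (z n)) (fun n => s ^ n • z n)
    (fun j : ℕ => (j : ℂ)) Nat.cast_injective (fun j => ?_) n hn
  have h1 : ac b a m (dg i s) (ac b a m (dg i (j : ℂ)) x) = ac b a m (dg i (s * j)) x := by
    rw [ac_mul, dg_mul]
  rw [hz' (j : ℂ), hz' (s * j), map_sum] at h1
  have h2 : ∀ n ∈ Finset.range (b * a + 1), ac b a m (dg i s) ((j : ℂ) ^ n • z n) =
      (j : ℂ) ^ n • ac b a m (dg i s) (z n) := fun n _ => map_smul _ _ _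
  rw [Finset.sum_congr rfl h2] at h1
  refine h1.trans (Finset.sum_congr rfl (fun n _ => ?_))
  rw [smul_smul, mul_pow, mul_comm]

lemma ac_dg_nil (i : Fin m) (x : Sym[ℂ]^b (Sym[ℂ]^a (Fin m → ℂ))) :
    Polynomial.aeval (ac b a m (dg i 2))
      (∏ k ∈ Finset.range (b * a + 1), (Polynomial.X - Polynomial.C ((2 : ℂ) ^ k))) x = 0 := by
  obtain ⟨z, hz, hz2⟩ := ac_dg_poly i x
  have hx : x = ∑ n ∈ Finset.range (b * a + 1), z n := by
    have h1 := hz 1
    rw [dg_one, ac_one] at h1
    rw [h1]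
    exact Finset.sum_congr rfl (fun n _ => by rw [one_pow, one_smul])
  have hx2 : Polynomial.aeval (ac b a m (dg i 2))
      (∏ k ∈ Finset.range (b * a + 1), (Polynomial.X - Polynomial.C ((2 : ℂ) ^ k))) x =
      ∑ n ∈ Finset.range (b * a + 1), Polynomial.aeval (ac b a m (dg i 2))
      (∏ k ∈ Finset.range (b * a + 1), (Polynomial.X - Polynomial.C ((2 : ℂ) ^ k))) (z n) := by
    conv_lhs => rw [hx]
    rw [map_sum]
  rw [hx2]
  apply Finset.sum_eq_zero
  intro n hn
  rw [← Finset.prod_erase_mul _ _ hn, map_mul, Module.End.mul_apply, sub_eq_add_neg,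
    ← Polynomial.C_neg, map_add, Polynomial.aeval_X, Polynomial.aeval_C, LinearMap.add_apply,
    Module.algebraMap_end_apply, hz2 n (Finset.mem_range.1 hn), ← add_smul, add_neg_cancel,
    zero_smul, map_zero]

lemma ac_dg_fix (i : Fin m) {k : ℕ} (x : Sym[ℂ]^b (Sym[ℂ]^a (Fin m → ℂ)))
    (hx : ac b a m (dg i 2) x = (2 : ℂ) ^ k • x) (t : ℂ) :
    ac b a m (dg i t) x = t ^ k • x := by
  obtain ⟨z, hz, -⟩ := ac_dg_poly i x
  have hpow : ∀ j : ℕ, ac b a m (dg i ((2 : ℂ) ^ j)) x = ((2 : ℂ) ^ j) ^ k • x := by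
    intro j
    induction j with
    | zero => rw [pow_zero, dg_one, ac_one, one_pow, one_smul]
    | succ j ih =>
      rw [pow_succ, ← dg_mul, ← ac_mul, hx, map_smul, ih, smul_smul, mul_pow, mul_comm]
  have hsub : Finset.range (b * a + 1) ⊆ Finset.range (b * a + 1 + k) := by
    intro n hn
    rw [Finset.mem_range] at hn ⊢
    omega
  have e1 : ∀ s : ℂ, ∑ n ∈ Finset.range (b * a + 1 + k),
      s ^ n • (if n < b * a + 1 then z n else 0) =
      ∑ n ∈ Finset.range (b * a + 1), s ^ n • z n := by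
    intro s
    rw [← Finset.sum_subset hsub]
    · apply Finset.sum_congr rfl
      intro n hn
      rw [if_pos (Finset.mem_range.1 hn)]
    · intro n _ hn
      rw [if_neg (fun h => hn (Finset.mem_range.2 h)), smul_zero]
  have e2 : ∀ s : ℂ, ∑ n ∈ Finset.range (b * a + 1 + k), s ^ n • (if n = k then x else 0) =
      s ^ k • x := by
    intro s
    rw [Finset.sum_eq_single k]
    · rw [if_pos rfl]
    · intro n _ hn
      rw [if_neg hn, smul_zero]
    · intro h
      exact absurd (Finset.mem_range.2 (by omega)) h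
  have h0 := vec_ext (b * a + 1 + k) (fun n => if n < b * a + 1 then z n else 0)
    (fun n => if n = k then x else 0) (fun j : ℕ => (2 : ℂ) ^ j)
    (fun j j' h => by
      have h' : (2 : ℝ) ^ j = (2 : ℝ) ^ j' := by
        have h2 := congrArg (fun u : ℂ => ‖u‖) h
        simp only [norm_pow, Complex.norm_ofNat] at h2
        exact h2
      exact pow_right_injective₀ (by norm_num) (by norm_num) h')
    (fun j => ((e1 _).trans ((hz _).symm.trans (hpow j))).trans (e2 _).symm)
  have e3 : ∑ n ∈ Finset.range (b * a + 1 + k), t ^ n • (if n < b * a + 1 then z n else 0) =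
      ∑ n ∈ Finset.range (b * a + 1 + k), t ^ n • (if n = k then x else 0) := by
    apply Finset.sum_congr rfl
    intro n hn
    have h3 : (if n < b * a + 1 then z n else 0) = (if n = k then x else 0) :=
      h0 n (Finset.mem_range.1 hn)
    rw [h3]
  rw [hz t, ← e1 t, e3, e2]

end

end R7

variable {b a m : ℕ}

theorem act_poly (A N : Matrix (Fin m) (Fin m) ℂ) (x : Pleth b a m) :
    ∃ z : ℕ → Pleth b a m, ∀ t : ℂ, plethAct b a m (A + t • N) x =
      ∑ n ∈ Finset.range (b * a + 1), t ^ n • z n :=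
  R7.ac_poly A N x

theorem unip_nil {k l : Fin m} (hkl : k ≠ l) (x : Pleth b a m) :
    Polynomial.aeval (plethAct b a m (Matrix.transvection k l 1))
      (∏ _k ∈ Finset.range (b * a + 1), (Polynomial.X - Polynomial.C (1 : ℂ))) x = 0 :=
  R7.ac_unip_nil hkl x

theorem unip_fix {k l : Fin m} (hkl : k ≠ l) (x : Pleth b a m)
    (hx : plethAct b a m (Matrix.transvection k l 1) x = x) (t : ℂ) :
    plethAct b a m (Matrix.transvection k l t) x = x :=
  R7.ac_unip_fix hkl x hx t

theorem dg_poly (i : Fin m) (x : Pleth b a m) :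
    Polynomial.aeval (plethAct b a m (dg i 2))
      (∏ k ∈ Finset.range (b * a + 1), (Polynomial.X - Polynomial.C ((2 : ℂ) ^ k))) x = 0 :=
  R7.ac_dg_nil i x

theorem dg_fix (i : Fin m) {k : ℕ} (x : Pleth b a m)
    (hx : plethAct b a m (dg i 2) x = (2 : ℂ) ^ k • x) (t : ℂ) :
    plethAct b a m (dg i t) x = t ^ k • x :=
  R7.ac_dg_fix i x hx t

end Vale.Agent.P181.FR
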