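import Vale.Agent.P181.R2.H959.WDefs
import Vale.Agent.P181.R2.H923.FR2

set_option autoImplicit false

/-!
Definitions for the reduction of `Sym^B(Sym^c)` to the invariants of `Sym^B(Sym^(3mc + N0))`.
Here `m = r + 1` and a block has `nn r = 3 m - 1` points.
-/

namespace Vale.Agent.P181.VT

open Vale.Agent.P181 Vale.Agent.P181.H280 Vale.Agent.P181.FR

/-- The number of points of a block. -/
abbrev nn (r : ℕ) : ℕ := (r + 1) + (r + (r + 1))

/-- The block `β` of a configuration of `k * n` points. -/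
def pt {k n m : ℕ} (p : Fin (k * n) → Fin m → ℂ) (β : Fin k) : Fin n → Fin m → ℂ :=
  fun s => p (finProdFinEquiv (β, s))

/-- The matrix of the first `m` points of a block. -/
def WA {r : ℕ} (w : Fin (nn r) → Fin (r + 1) → ℂ) : Matrix (Fin (r + 1)) (Fin (r + 1)) ℂ :=
  fun i => w (Fin.castAdd _ i)

/-- The matrix of point `i` and the `r` middle points. -/
def WB {r : ℕ} (w : Fin (nn r) → Fin (r + 1) → ℂ) (i : Fin (r + 1)) :
    Matrix (Fin (r + 1)) (Fin (r + 1)) ℂ :=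
  Fin.cons (w (Fin.castAdd _ i)) (fun u : Fin r => w (Fin.natAdd (r + 1) (Fin.castAdd (r + 1) u)))

/-- The matrix of the last `m` points. -/
def WC {r : ℕ} (w : Fin (nn r) → Fin (r + 1) → ℂ) : Matrix (Fin (r + 1)) (Fin (r + 1)) ℂ :=
  fun v => w (Fin.natAdd (r + 1) (Fin.natAdd r v))

/-- The frame of a block: `(v ᵥ* Yb w) i = det (WA w with row i replaced by v) * det (WB w i) *
det (WC w)`, linear in every point of the block. -/
noncomputable def Yb {r : ℕ} (w : Fin (nn r) → Fin (r + 1) → ℂ) :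
    Matrix (Fin (r + 1)) (Fin (r + 1)) ℂ :=
  (WA w).adjugate * Matrix.diagonal (fun i => (WB w i).det * (WC w).det)

/-- The mixed frame. -/
noncomputable def YY {r k : ℕ} (t : Fin k → ℂ) (p : Fin (k * nn r) → Fin (r + 1) → ℂ) :
    Matrix (Fin (r + 1)) (Fin (r + 1)) ℂ := ∑ β, t β • Yb (pt p β)

/-- The polarisation condition: the functional `(τ, α)` picks the coefficient of
`t_1 ^ e ⋯ t_k ^ e` in homogeneous polynomials of degree `k e`. -/
def Polar (k e : ℕ) {N : ℕ} (τ : Fin N → Fin k → ℂ) (α : Fin N → ℂ) : Prop :=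
  ∀ n : Fin k → ℕ, ∑ β, n β = k * e → ∑ i, α i * ∏ β, τ i β ^ n β = if n = fun _ => e then 1 else 0

/-- The polarised substitution. -/
noncomputable def TH {r k N : ℕ} (τ : Fin N → Fin k → ℂ) (α : Fin N → ℂ)
    (H : Matrix (Fin (r + 1)) (Fin (r + 1)) ℂ) (F : (Fin (k * nn r) → Fin (r + 1) → ℂ) → ℂ) :
    (Fin (k * nn r) → Fin (r + 1) → ℂ) → ℂ :=
  fun p => ∑ i, α i * F (fun j => Matrix.vecMul (p j) (YY (τ i) p * H))

/-- The product over the blocks. -/
noncomputable def QQ {r k : ℕ} (q : (Fin (nn r) → Fin (r + 1) → ℂ) → ℂ)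
    (p : Fin (k * nn r) → Fin (r + 1) → ℂ) : ℂ := ∏ β, q (pt p β)

/-- The separating function of a block. -/
def SepQ (r N0 N1 : ℕ) (q : (Fin (nn r) → Fin (r + 1) → ℂ) → ℂ)
    (z : Fin (nn r) → Fin (r + 1) → ℂ) : Prop :=
  q ∈ MP (nn r) (r + 1) N0 ∧ HWF (nn r) (r + 1) (N1 • om (r + 1) (r + 1)) q ∧ q z ≠ 0 ∧
    (∀ ρ : Fin (nn r) → Fin (nn r), ρ ≠ id → q (fun s => z (ρ s)) = 0) ∧ (Yb z).det ≠ 0

end Vale.Agent.P181.VT
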