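import Vale.Agent.P181.R2.H182.VDefs

set_option autoImplicit false

open scoped TensorProduct

namespace Vale.Agent.P181.VT

open Vale.Agent.P181 Vale.Agent.P181.H280 Vale.Agent.P181.FR

/-- V1: polarisation by roots of unity. -/
def V1 : Prop := ∀ k e : ℕ, ∃ (N : ℕ) (τ : Fin N → Fin k → ℂ) (α : Fin N → ℂ), Polar k e τ α

/-- V2: degrees. -/
def V2 : Prop := ∀ {r k c N : ℕ} (τ : Fin N → Fin k → ℂ) (α : Fin N → ℂ),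
  Polar k (nn r * c) τ α → ∀ (H : Matrix (Fin (r + 1)) (Fin (r + 1)) ℂ)
  (F : (Fin (k * nn r) → Fin (r + 1) → ℂ) → ℂ), F ∈ MP (k * nn r) (r + 1) c →
  TH τ α H F ∈ MP (k * nn r) (r + 1) (3 * (r + 1) * c)

/-- V3: invariance. -/
def V3 : Prop := ∀ {r k c N : ℕ} (τ : Fin N → Fin k → ℂ) (α : Fin N → ℂ)
  (H : Matrix (Fin (r + 1)) (Fin (r + 1)) ℂ)
  (F : (Fin (k * nn r) → Fin (r + 1) → ℂ) → ℂ), F ∈ MP (k * nn r) (r + 1) c →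
  HWF (k * nn r) (r + 1) ((3 * (k * nn r * c)) • om (r + 1) (r + 1)) (TH τ α H F)

/-- V4: separation. -/
def V4 : Prop := ∀ r : ℕ, 1 ≤ r → ∃ (N0 N1 : ℕ) (q : (Fin (nn r) → Fin (r + 1) → ℂ) → ℂ)
  (z : Fin (nn r) → Fin (r + 1) → ℂ), SepQ r N0 N1 q z

/-- V5: the value at the cluster configuration. -/
def V5 : Prop := ∀ {r k c N N0 N1 : ℕ} (τ : Fin N → Fin k → ℂ) (α : Fin N → ℂ)
  (q : (Fin (nn r) → Fin (r + 1) → ℂ) → ℂ) (z : Fin (nn r) → Fin (r + 1) → ℂ),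
  Polar k (nn r * c) τ α → SepQ r N0 N1 q z → ∃ C : ℂ, C ≠ 0 ∧
  ∀ Φ : Matrix (Fin (r + 1)) (Fin (r + 1)) ℂ → ℂ,
    (∀ (s : ℂ) (X : Matrix (Fin (r + 1)) (Fin (r + 1)) ℂ), Φ (s • X) = s ^ (k * nn r * c) * Φ X) →
    ∑ σ : Equiv.Perm (Fin (k * nn r)),
      QQ q (fun j => z (finProdFinEquiv.symm (σ j)).2) *
        ∑ i, α i * Φ (YY (τ i) (fun j => z (finProdFinEquiv.symm (σ j)).2)) = C * Φ (Yb z)

/-- V6: injectivity of the family of substitutions. -/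
def V6 : Prop := ∀ {r k c N N0 N1 : ℕ} (τ : Fin N → Fin k → ℂ) (α : Fin N → ℂ)
  (q : (Fin (nn r) → Fin (r + 1) → ℂ) → ℂ) (z : Fin (nn r) → Fin (r + 1) → ℂ),
  Polar k (nn r * c) τ α → SepQ r N0 N1 q z →
  ∃ (M : ℕ) (H : Fin M → Matrix (Fin (r + 1)) (Fin (r + 1)) ℂ),
    M ≤ (k * nn r * c + 1) ^ ((r + 1) * (r + 1)) ∧
    ∀ F ∈ MP (k * nn r) (r + 1) c, F ≠ 0 →
      (∀ (σ : Equiv.Perm (Fin (k * nn r))) (p : Fin (k * nn r) → Fin (r + 1) → ℂ),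
        F (fun j => p (σ j)) = F p) →
      ∃ (l : Fin M) (p : Fin (k * nn r) → Fin (r + 1) → ℂ), ∑ σ : Equiv.Perm (Fin (k * nn r)),
        QQ q (fun j => p (σ j)) * TH τ α (H l) F (fun j => p (σ j)) ≠ 0

/-- V7: the reduction to invariants. -/
def V7 : Prop := ∀ r : ℕ, 1 ≤ r → ∃ N0 N1 : ℕ, ∀ k c : ℕ,
  Module.finrank ℂ (Pleth (k * nn r) c (r + 1)) ≤
    (k * nn r * c + 1) ^ ((r + 1) * (r + 1)) *
      plethMult (k * nn r) (3 * (r + 1) * c + N0) (r + 1)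
        ((3 * (k * nn r * c) + k * N1) • om (r + 1) (r + 1))

/-- V9: the theorem. -/
def V9 : Prop := ∀ (n : ℕ) {δ κ : ℝ}, 0 < δ → 0 < κ → ∃ A : ℕ, ∀ (a b : ℕ)
  (lam : Fin (n + 3) → ℕ), A ≤ a → (1 + δ) * a ≤ b → κ * (a * b) ≤ lam (Fin.last _) →
  plethMult a b (n + 3) lam ≤ plethMult b a (n + 3) lam

end Vale.Agent.P181.VT
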